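import Mathlib

/-!
# Continuity of cut-off maps into a one-point compactification

* `continuous_onePoint` : a map `f : Z → OnePoint S`, equal to `some (s z)` on an open set `D` and to
  `∞` off `D`, is continuous if `s` is continuous on `D` and `N (s z) → ∞` at every point not in `D`
  (`N : S → ℝ` bounded on compact sets).
* `cut s = s / (1 - ‖s‖)`; `continuous_cut` : the version where the vectors are of the form `cut (s i z)`.
* `sphMap`, `continuous_sphMap` : the version for `T × OnePoint V`.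
-/

open OnePoint Set Topology Filter

namespace Vale.Agent.P093.A

section OnePt

variable {Z S : Type*} [TopologicalSpace Z] [TopologicalSpace S]

theorem continuous_onePoint {D : Set Z} (hD : IsOpen D) {f : Z → OnePoint S} {s : Z → S}
    (hs : ContinuousOn s D) (hf1 : ∀ z ∈ D, f z = OnePoint.some (s z)) (hf2 : ∀ z ∉ D, f z = ∞)
    {N : S → ℝ} (hN : ∀ C : Set S, IsCompact C → ∃ R, ∀ c ∈ C, N c ≤ R)
    (hlim : ∀ z₀ ∉ D, ∀ R, ∀ᶠ z in 𝓝 z₀, z ∈ D → R < N (s z)) : Continuous f := by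
  rw [continuous_iff_continuousAt]
  intro z₀
  by_cases hz : z₀ ∈ D
  · have h1 : ContinuousAt (fun z => (OnePoint.some (s z) : OnePoint S)) z₀ :=
      OnePoint.continuous_coe.continuousAt.comp (hs.continuousAt (hD.mem_nhds hz))
    refine h1.congr ?_
    filter_upwards [hD.mem_nhds hz] with z hz'
    rw [hf1 z hz']
  · unfold ContinuousAt
    rw [hf2 z₀ hz, OnePoint.hasBasis_nhds_infty.tendsto_right_iff]
    rintro C ⟨hC1, hC2⟩
    obtain ⟨R, hR⟩ := hN C hC2
    filter_upwards [hlim z₀ hz R] with z hz'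
    by_cases hzD : z ∈ D
    · rw [hf1 z hzD]
      refine Or.inl ⟨s z, ?_, rfl⟩
      intro hc
      exact absurd (hR _ hc) (not_le.2 (hz' hzD))
    · rw [hf2 z hzD]
      exact Or.inr rfl

theorem bounded_of_continuous {N : S → ℝ} (hN : Continuous N) (C : Set S) (hC : IsCompact C) :
    ∃ R, ∀ c ∈ C, N c ≤ R := by
  obtain ⟨R, hR⟩ := hC.bddAbove_image hN.continuousOn
  exact ⟨R, fun c hc => hR ⟨c, hc, rfl⟩⟩

end OnePt

section Cut

variable {E : Type*} [NormedAddCommGroup E] [NormedSpace ℝ E]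

/-- `cut s = s / (1 - ‖s‖)`, used for `‖s‖ < 1` -/
noncomputable def cut (s : E) : E := (1 - ‖s‖)⁻¹ • s

@[simp] theorem cut_zero : cut (0 : E) = 0 := by simp [cut]

theorem norm_cut {s : E} (hs : ‖s‖ < 1) : ‖cut s‖ = ‖s‖ / (1 - ‖s‖) := by
  have h1 : 0 < 1 - ‖s‖ := by linarith
  rw [cut, norm_smul, norm_inv, Real.norm_of_nonneg h1.le, div_eq_inv_mul]

theorem continuousOn_cut : ContinuousOn (cut : E → E) {s | ‖s‖ < 1} := by
  refine ContinuousOn.smul (ContinuousOn.inv₀ (by fun_prop) ?_) continuousOn_id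
  intro s hs
  have : ‖s‖ < 1 := hs
  linarith

theorem ContinuousOn.cut {Z : Type*} [TopologicalSpace Z] {D : Set Z} {s : Z → E}
    (hs : ContinuousOn s D) (h : ∀ z ∈ D, ‖s z‖ < 1) : ContinuousOn (fun z => A.cut (s z)) D :=
  continuousOn_cut.comp hs h

/-- `‖cut s‖` is large when `‖s‖` is close to `1` -/
theorem lt_norm_cut {s : E} (hs : ‖s‖ < 1) {R : ℝ} (hR : 0 ≤ R) (h : R / (1 + R) < ‖s‖) :
    R < ‖cut s‖ := by
  rw [norm_cut hs, lt_div_iff₀ (by linarith)]
  rw [div_lt_iff₀ (by positivity)] at h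
  linarith

/-- the inverse of `cut`: `sq x = x / (1 + ‖x‖)` -/
noncomputable def sq (x : E) : E := (1 + ‖x‖)⁻¹ • x

theorem norm_sq (x : E) : ‖sq x‖ = ‖x‖ / (1 + ‖x‖) := by
  have h1 : 0 < 1 + ‖x‖ := by positivity
  rw [sq, norm_smul, norm_inv, Real.norm_of_nonneg h1.le, div_eq_inv_mul]

theorem norm_sq_lt (x : E) : ‖sq x‖ < 1 := by
  rw [norm_sq, div_lt_one (by positivity)]; linarith

theorem continuous_sq : Continuous (sq : E → E) := by
  refine Continuous.smul (Continuous.inv₀ (by fun_prop) ?_) continuous_id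
  intro x
  positivity

theorem cut_sq (x : E) : cut (sq x) = x := by
  have h1 : (1 + ‖x‖) ≠ 0 := by positivity
  rw [cut, norm_sq, sq, smul_smul]
  have : (1 - ‖x‖ / (1 + ‖x‖))⁻¹ * (1 + ‖x‖)⁻¹ = 1 := by
    have h2 : 1 - ‖x‖ / (1 + ‖x‖) = (1 + ‖x‖)⁻¹ := by field_simp; ring
    rw [h2, inv_inv, mul_inv_cancel₀ h1]
  rw [this, one_smul]

theorem sq_cut {s : E} (hs : ‖s‖ < 1) : sq (cut s) = s := by
  have h1 : (1 - ‖s‖) ≠ 0 := by linarith
  rw [sq, norm_cut hs, cut, smul_smul]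
  have : (1 + ‖s‖ / (1 - ‖s‖))⁻¹ * (1 - ‖s‖)⁻¹ = 1 := by
    have h2 : 1 + ‖s‖ / (1 - ‖s‖) = (1 - ‖s‖)⁻¹ := by field_simp; ring
    rw [h2, inv_inv, mul_inv_cancel₀ h1]
  rw [this, one_smul]

end Cut

section General

variable {Z S : Type*} [TopologicalSpace Z] [TopologicalSpace S] {ι : Type*} [Finite ι]
  {E : ι → Type*} [∀ i, NormedAddCommGroup (E i)]

/-- the set where a cut-off map is finite -/
def good (O : Set Z) (s : ∀ i, Z → E i) : Set Z := {z | z ∈ O ∧ ∀ i, ‖s i z‖ < 1}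

omit [Finite ι] [TopologicalSpace Z] in
theorem mem_good {O : Set Z} {s : ∀ i, Z → E i} {z : Z} :
    z ∈ good O s ↔ z ∈ O ∧ ∀ i, ‖s i z‖ < 1 := Iff.rfl

theorem isOpen_good {O : Set Z} (hO : IsOpen O) {s : ∀ i, Z → E i}
    (hs : ∀ i, ContinuousOn (s i) O) : IsOpen (good O s) := by
  rw [isOpen_iff_eventually]
  intro z₀ hz₀
  have h1 : ∀ᶠ z in 𝓝 z₀, ∀ i, ‖s i z‖ < 1 := by
    rw [eventually_all]
    intro i
    have h2 : ContinuousAt (fun z => ‖s i z‖) z₀ :=
      ((hs i).continuousAt (hO.mem_nhds hz₀.1)).norm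
    exact h2.eventually (gt_mem_nhds (hz₀.2 i))
  filter_upwards [h1, hO.mem_nhds hz₀.1] with z h2 h3
  exact ⟨h3, h2⟩

/-- **Cut-off maps are continuous.** `σ z` is the value in `S`, whose size `N` dominates all the vectors
`cut (s i z)`; at a point not in `O`, one of the `‖s i z‖` tends to `1`. -/
theorem continuous_cut [∀ i, NormedSpace ℝ (E i)] {O : Set Z} (hO : IsOpen O) {s : ∀ i, Z → E i}
    (hs : ∀ i, ContinuousOn (s i) O)
    (hlim : ∀ z₀ ∉ O, ∀ ε : ℝ, 0 < ε → ∀ᶠ z in 𝓝 z₀, z ∈ O → ∃ i, 1 - ε < ‖s i z‖)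
    {σ : Z → S} (hσ : ContinuousOn σ (good O s)) {N : S → ℝ}
    (hN : ∀ C : Set S, IsCompact C → ∃ R, ∀ c ∈ C, N c ≤ R)
    (hNσ : ∀ z ∈ good O s, ∀ i, ‖cut (s i z)‖ ≤ N (σ z))
    {f : Z → OnePoint S} (hf1 : ∀ z ∈ good O s, f z = OnePoint.some (σ z))
    (hf2 : ∀ z ∉ good O s, f z = ∞) : Continuous f := by
  refine continuous_onePoint (isOpen_good hO hs) hσ hf1 hf2 hN ?_
  intro z₀ hz₀ R
  obtain ⟨R', hR'0, hRR'⟩ : ∃ R' : ℝ, 0 ≤ R' ∧ R ≤ R' := ⟨max R 0, le_max_right _ _, le_max_left _ _⟩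
  -- one of the vectors is large
  have key : ∀ᶠ z in 𝓝 z₀, z ∈ good O s → ∃ i, R' / (1 + R') < ‖s i z‖ := by
    by_cases hzO : z₀ ∈ O
    · have h1 : ∃ i, 1 ≤ ‖s i z₀‖ := by
        by_contra hcon
        push Not at hcon
        exact hz₀ ⟨hzO, hcon⟩
      obtain ⟨i, hi⟩ := h1
      have h2 : ContinuousAt (fun z => ‖s i z‖) z₀ :=
        ((hs i).continuousAt (hO.mem_nhds hzO)).norm
      have h3 : R' / (1 + R') < 1 := by rw [div_lt_one (by positivity)]; linarith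
      filter_upwards [h2.eventually (lt_mem_nhds (h3.trans_le hi))] with z hz _
      exact ⟨i, hz⟩
    · have h3 : 0 < 1 / (1 + R') := by positivity
      filter_upwards [hlim z₀ hzO _ h3] with z hz hg
      obtain ⟨i, hi⟩ := hz hg.1
      refine ⟨i, ?_⟩
      have h4 : R' / (1 + R') = 1 - 1 / (1 + R') := by field_simp; ring
      rw [h4]; exact hi
  filter_upwards [key] with z hz hg
  obtain ⟨i, hi⟩ := hz hg
  exact hRR'.trans_lt ((lt_norm_cut (hg.2 i) hR'0 hi).trans_le (hNσ z hg i))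

end General

section Sphere

variable {T V S : Type*} [TopologicalSpace T] [TopologicalSpace V] [TopologicalSpace S]

/-- properties which hold off a compact set of `V` hold near `∞` -/
theorem eventually_near_infty {p : T → OnePoint V → Prop} {C : Set V} (hC1 : IsClosed C)
    (hC2 : IsCompact C) (h : ∀ t, ∀ v ∉ C, p t (OnePoint.some v)) (hinf : ∀ t, p t ∞) (t : T) :
    ∀ᶠ z in 𝓝 (t, (∞ : OnePoint V)), p z.1 z.2 := by
  have h1 : ∀ᶠ w in 𝓝 (∞ : OnePoint V), ∀ t', p t' w := by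
    filter_upwards [OnePoint.hasBasis_nhds_infty.mem_of_mem (i := C) ⟨hC1, hC2⟩] with w hw t'
    rcases hw with ⟨v, hv, rfl⟩ | hw
    · exact h t' v hv
    · rw [mem_singleton_iff] at hw
      rw [hw]; exact hinf t'
  have h2 : Tendsto (fun z : T × OnePoint V => z.2) (𝓝 (t, ∞)) (𝓝 ∞) := continuous_snd.continuousAt
  filter_upwards [h2.eventually h1] with z hz
  exact hz z.1

open scoped Classical in
/-- the pointed map `V⁺ → S⁺` (with parameters in `T`), equal to `σ` on `D` and to `∞` elsewhere -/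
noncomputable def sphMap (D : Set (T × V)) (σ : T × V → S) (t : T) : OnePoint V → OnePoint S
  | ∞ => ∞
  | OnePoint.some v => if (t, v) ∈ D then OnePoint.some (σ (t, v)) else ∞

omit [TopologicalSpace T] [TopologicalSpace V] [TopologicalSpace S] in
@[simp] theorem sphMap_infty (D : Set (T × V)) (σ : T × V → S) (t : T) :
    sphMap D σ t ∞ = ∞ := rfl

omit [TopologicalSpace T] [TopologicalSpace V] [TopologicalSpace S] in
theorem sphMap_of_mem {D : Set (T × V)} (σ : T × V → S) {t : T} {v : V} (h : (t, v) ∈ D) :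
    sphMap D σ t (OnePoint.some v) = OnePoint.some (σ (t, v)) := if_pos h

omit [TopologicalSpace T] [TopologicalSpace V] [TopologicalSpace S] in
theorem sphMap_of_notMem {D : Set (T × V)} (σ : T × V → S) {t : T} {v : V} (h : (t, v) ∉ D) :
    sphMap D σ t (OnePoint.some v) = ∞ := if_neg h

omit [TopologicalSpace T] [TopologicalSpace V] [TopologicalSpace S] in
theorem sphMap_ne_infty {D : Set (T × V)} {σ : T × V → S} {t : T} {w : OnePoint V}
    (h : sphMap D σ t w ≠ ∞) : ∃ v, w = OnePoint.some v ∧ (t, v) ∈ D ∧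
      sphMap D σ t w = OnePoint.some (σ (t, v)) := by
  induction w using OnePoint.rec with
  | infty => exact absurd rfl h
  | coe v =>
    by_cases hv : (t, v) ∈ D
    · exact ⟨v, rfl, hv, sphMap_of_mem σ hv⟩
    · exact absurd (sphMap_of_notMem σ hv) h

omit [TopologicalSpace T] [TopologicalSpace V] [TopologicalSpace S] in
theorem continuousOn_inv {A B Y : Type*} [TopologicalSpace A] [TopologicalSpace B]
    [TopologicalSpace Y] {φ : A → B} (hφ : IsOpenEmbedding φ) {inv : B → A}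
    (hinv : ∀ a, inv (φ a) = a) {D : Set A} {g : A → Y} (hD : IsOpen D) (hg : ContinuousOn g D) :
    ContinuousOn (fun z => g (inv z)) (φ '' D) := by
  rintro _ ⟨y, hy, rfl⟩
  have h1 : ContinuousAt g y := hg.continuousAt (hD.mem_nhds hy)
  have h2 : ContinuousAt (fun z => g (inv z)) (φ y) := by
    rw [← hφ.continuousAt_iff]
    have h3 : (fun z => g (inv z)) ∘ φ = g := funext fun a => congrArg g (hinv a)
    rw [h3]
    exact h1
  exact h2.continuousWithinAt

/-- **Continuity of `sphMap`.** -/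
theorem continuous_sphMap [T2Space V] {ι : Type*} [Finite ι] {E : ι → Type*}
    [∀ i, NormedAddCommGroup (E i)] [∀ i, NormedSpace ℝ (E i)] {O : Set (T × V)} (hO : IsOpen O)
    {s : ∀ i, T × V → E i} (hs : ∀ i, ContinuousOn (s i) O)
    (hbd : ∀ z₀ ∉ O, ∀ ε : ℝ, 0 < ε → ∀ᶠ z in 𝓝 z₀, z ∈ O → ∃ i, 1 - ε < ‖s i z‖)
    (hinf : ∀ ε : ℝ, 0 < ε → ∃ C : Set V, IsCompact C ∧ ∀ z ∈ O, z.2 ∉ C → ∃ i, 1 - ε < ‖s i z‖)
    {σ : T × V → S} (hσ : ContinuousOn σ (good O s)) {N : S → ℝ}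
    (hN : ∀ C : Set S, IsCompact C → ∃ R, ∀ c ∈ C, N c ≤ R)
    (hNσ : ∀ z ∈ good O s, ∀ i, ‖cut (s i z)‖ ≤ N (σ z)) :
    Continuous fun z : T × OnePoint V => sphMap (good O s) σ z.1 z.2 := by
  -- transport everything to `T × OnePoint V`
  let φ : T × V → T × OnePoint V := Prod.map id OnePoint.some
  have hφ : IsOpenEmbedding φ := IsOpenEmbedding.id.prodMap OnePoint.isOpenEmbedding_coe
  let ψ : T × OnePoint V → Option (T × V) := fun z => Option.map (fun v => (z.1, v)) z.2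
  have hψ : ∀ z, ψ (φ z) = Option.some z := fun z => rfl
  rcases isEmpty_or_nonempty (T × V) with hE | ⟨⟨z₁⟩⟩
  · have h1 : (fun z : T × OnePoint V => sphMap (good O s) σ z.1 z.2) = fun _ => ∞ := by
      funext z
      rcases z with ⟨t, w⟩
      induction w using OnePoint.rec with
      | infty => rfl
      | coe v => exact (hE.false (t, v)).elim
    rw [h1]; exact continuous_const
  let inv : T × OnePoint V → T × V := fun z => (ψ z).getD z₁
  have hinv : ∀ z, inv (φ z) = z := fun z => rfl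
  have himg' : good (φ '' O) (fun i z => s i (inv z)) = φ '' good O s := by
    ext z
    constructor
    · rintro ⟨⟨y, hy, rfl⟩, h2⟩
      exact ⟨y, ⟨hy, fun i => h2 i⟩, rfl⟩
    · rintro ⟨y, ⟨hy, h2⟩, rfl⟩
      exact ⟨⟨y, hy, rfl⟩, h2⟩
  refine continuous_cut (S := S) (O := φ '' O) (hφ.isOpenMap _ hO)
    (s := fun i z => s i (inv z)) (fun i => continuousOn_inv hφ hinv hO (hs i)) ?_ (σ := fun z => σ (inv z)) ?_ hN ?_ ?_ ?_
  · rintro ⟨t, w⟩ hz ε hε
    induction w using OnePoint.rec with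
    | infty =>
      obtain ⟨C, hC, h⟩ := hinf ε hε
      refine eventually_near_infty (p := fun t' w' => (t', w') ∈ φ '' O →
        ∃ i, 1 - ε < ‖s i (inv (t', w'))‖) hC.isClosed hC ?_ ?_ t
      · rintro t' v hv ⟨y, hy, hyz⟩
        have h1 : y = (t', v) := hφ.injective hyz
        rw [h1] at hy
        exact h _ hy hv
      · rintro t' ⟨y, hy, hyz⟩
        exact absurd (congrArg Prod.snd hyz) (OnePoint.coe_ne_infty _)
    | coe v =>
      have hv : (t, v) ∉ O := fun h => hz ⟨(t, v), h, rfl⟩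
      have h1 := hbd _ hv ε hε
      have h2 : ∀ᶠ z in 𝓝 (φ (t, v)), z ∈ range φ ∧ (z ∈ φ '' O → ∃ i, 1 - ε < ‖s i (inv z)‖) := by
        rw [← hφ.map_nhds_eq, Filter.eventually_map]
        filter_upwards [h1] with y hy
        refine ⟨⟨y, rfl⟩, ?_⟩
        rintro ⟨y', hy', hyy⟩
        have h3 : y' = y := hφ.injective hyy
        rw [h3] at hy'
        exact hy hy'
      filter_upwards [h2] with z hz2
      exact hz2.2
  · rw [himg']
    exact continuousOn_inv hφ hinv (isOpen_good hO hs) hσ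
  · rw [himg']
    rintro _ ⟨y, hy, rfl⟩ i
    exact hNσ y hy i
  · rw [himg']
    rintro _ ⟨⟨t, v⟩, hy, rfl⟩
    exact sphMap_of_mem σ hy
  · rw [himg']
    rintro ⟨t, w⟩ hz
    induction w using OnePoint.rec with
    | infty => rfl
    | coe v =>
      refine sphMap_of_notMem σ fun h => hz ⟨(t, v), h, rfl⟩

/-- the version with one vector -/
theorem continuous_sphMap_one [T2Space V] {E : Type*} [NormedAddCommGroup E] [NormedSpace ℝ E]
    {O : Set (T × V)} (hO : IsOpen O) {ξ : T × V → E} (hξ : ContinuousOn ξ O)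
    (hbd : ∀ z₀ ∉ O, ∀ᶠ z in 𝓝 z₀, z ∈ O → 1 ≤ ‖ξ z‖)
    (hinf : ∃ C : Set V, IsCompact C ∧ ∀ z ∈ O, z.2 ∉ C → 1 ≤ ‖ξ z‖)
    {σ : T × V → S} (hσ : ContinuousOn σ {z | z ∈ O ∧ ‖ξ z‖ < 1}) {N : S → ℝ}
    (hN : ∀ C : Set S, IsCompact C → ∃ R, ∀ c ∈ C, N c ≤ R)
    (hNσ : ∀ z ∈ O, ‖ξ z‖ < 1 → ‖cut (ξ z)‖ ≤ N (σ z)) :
    Continuous fun z : T × OnePoint V => sphMap {z | z ∈ O ∧ ‖ξ z‖ < 1} σ z.1 z.2 := by
  have h1 : {z | z ∈ O ∧ ‖ξ z‖ < 1} = good O (fun _ : Unit => ξ) := by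
    ext z
    exact ⟨fun h => ⟨h.1, fun _ => h.2⟩, fun h => ⟨h.1, h.2 ()⟩⟩
  rw [h1] at hσ ⊢
  refine continuous_sphMap (s := fun _ : Unit => ξ) hO (fun _ => hξ) ?_ ?_ hσ hN ?_
  · intro z₀ hz₀ ε hε
    filter_upwards [hbd z₀ hz₀] with z hz hzO
    exact ⟨(), by linarith [hz hzO]⟩
  · intro ε hε
    obtain ⟨C, hC, h⟩ := hinf
    exact ⟨C, hC, fun z hz hzC => ⟨(), by linarith [h z hz hzC]⟩⟩
  · intro z hz _
    exact hNσ z hz.1 (hz.2 ())

end Sphere

end Vale.Agent.P093.A
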