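import Mathlib.Topology.Compactification.OnePoint.Basic
import Mathlib.Analysis.Normed.Module.FiniteDimension
import Mathlib.Analysis.Calculus.FDeriv.Basic
import Mathlib.Topology.UnitInterval

/-!
# P093, part A: the derivative homotopy

`S` is a closed subset of `K × E` (`K` compact, `E` a finite dimensional normed space), stable under
`(k, ξ) ↦ (k, t ξ)`, `t > 0`; for instance the total space of a bundle of linear subspaces of `E`.
A pointed map `f : V⁺ → S⁺` with exactly one zero (point with `ξ = 0`), where it is differentiable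
with injective derivative `D`, is pointed homotopic to the fibre map `v ↦ (k₀, D v)`.
-/

open Set Filter Topology OnePoint

namespace Vale.Agent.P093.A

set_option linter.unusedSectionVars false

variable {K E V : Type*} [TopologicalSpace K] [NormedAddCommGroup E] [NormedSpace ℝ E]
  [NormedAddCommGroup V] [NormedSpace ℝ V] {S : Set (K × E)}

/-- closed, and stable under positive scalings of the second component -/
structure ConeSet (S : Set (K × E)) : Prop where
  closed : IsClosed S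
  smul_mem : ∀ k ξ, (k, ξ) ∈ S → ∀ t : ℝ, 0 < t → (k, t • ξ) ∈ S

/-- criterion for convergence to a finite point of `S⁺` -/
theorem tendsto_some {Z : Type*} {l : Filter Z} {F : Z → OnePoint S} {p : Z → K × E} {s : S}
    (h : ∀ᶠ z in l, ∃ h : p z ∈ S, F z = ((⟨p z, h⟩ : S) : OnePoint S))
    (hp : Tendsto p l (𝓝 (s : K × E))) : Tendsto F l (𝓝 (s : OnePoint S)) := by
  rw [OnePoint.nhds_coe_eq]
  intro W hW
  rw [mem_map, nhds_subtype_eq_comap] at hW
  obtain ⟨W', hW', hsub⟩ := hW
  have h3 : p ⁻¹' W' ∈ l := hp hW'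
  rw [mem_map]
  filter_upwards [h, h3] with z hz hz'
  obtain ⟨h1, h2⟩ := hz
  rw [mem_preimage, h2]
  exact hsub (show ((⟨p z, h1⟩ : S) : K × E) ∈ W' from hz')

/-- criterion for convergence to the point at infinity of `S⁺` -/
theorem tendsto_infty {Z : Type*} {l : Filter Z} {F : Z → OnePoint S}
    (h : ∀ R : ℝ, ∀ᶠ z in l, ∀ s : S, F z = (s : OnePoint S) → R < ‖(s : K × E).2‖) :
    Tendsto F l (𝓝 (∞ : OnePoint S)) := by
  rw [(OnePoint.hasBasis_nhds_infty (X := S)).tendsto_right_iff]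
  rintro s ⟨-, hs⟩
  obtain ⟨R, hR⟩ : ∃ R : ℝ, ∀ x ∈ s, ‖(x : K × E).2‖ ≤ R := by
    obtain ⟨R, hR⟩ := (hs.image (f := fun x : S => ‖(x : K × E).2‖) (by fun_prop)).bddAbove
    exact ⟨R, fun x hx => hR ⟨x, hx, rfl⟩⟩
  filter_upwards [h R] with z hz
  induction hF : F z using OnePoint.rec with
  | infty => exact Or.inr rfl
  | coe x =>
    refine Or.inl ⟨x, fun hx => ?_, rfl⟩
    exact absurd (hR x hx) (not_le.2 (hz x hF))

/-- the balls are compact -/
theorem isCompact_le [CompactSpace K] [FiniteDimensional ℝ E] (hS : IsClosed S) (R : ℝ) :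
    IsCompact {s : S | ‖(s : K × E).2‖ ≤ R} := by
  have : ProperSpace E := FiniteDimensional.proper_real E
  have h1 : IsCompact (S ∩ (univ ×ˢ Metric.closedBall (0 : E) R)) :=
    (isCompact_univ.prod (isCompact_closedBall _ _)).inter_left hS
  have h2 : {s : S | ‖(s : K × E).2‖ ≤ R} =
      (Subtype.val : S → K × E) ⁻¹' (S ∩ (univ ×ˢ Metric.closedBall (0 : E) R)) := by
    ext s
    simp
  rw [h2]
  exact hS.isClosedEmbedding_subtypeVal.isCompact_preimage h1

/-- a continuous function on `S⁺` that is `1` exactly at the zeros and `0` at infinity -/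
noncomputable def inv1 : OnePoint S → ℝ
  | ∞ => 0
  | OnePoint.some s => (1 + ‖(s : K × E).2‖)⁻¹

@[simp] theorem inv1_infty : inv1 (∞ : OnePoint S) = 0 := rfl

@[simp] theorem inv1_coe (s : S) : inv1 (s : OnePoint S) = (1 + ‖(s : K × E).2‖)⁻¹ := rfl

theorem inv1_le_one (x : OnePoint S) : inv1 x ≤ 1 := by
  induction x using OnePoint.rec with
  | infty => simp
  | coe s =>
    rw [inv1_coe]
    exact inv_le_one_of_one_le₀ (by linarith [norm_nonneg (s : K × E).2])

theorem continuous_inv1 [T2Space K] [CompactSpace K] [FiniteDimensional ℝ E] (hS : IsClosed S) :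
    Continuous (inv1 (S := S)) := by
  rw [OnePoint.continuous_iff]
  constructor
  · rw [Metric.tendsto_nhds]
    intro ε hε
    have hc := isCompact_le hS ε⁻¹
    rw [Filter.hasBasis_coclosedCompact.eventually_iff]
    refine ⟨_, ⟨hc.isClosed, hc⟩, fun s hs => ?_⟩
    have hs' : ε⁻¹ < ‖(s : K × E).2‖ := not_le.1 hs
    have h0 : (0 : ℝ) < ε⁻¹ := inv_pos.2 hε
    rw [inv1_infty, inv1_coe, dist_zero_right, norm_inv, Real.norm_of_nonneg (by positivity)]
    rw [inv_lt_comm₀ (by positivity) hε]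
    linarith
  · change Continuous fun s : S => (1 + ‖(s : K × E).2‖)⁻¹
    refine Continuous.inv₀ (by fun_prop) fun s => ?_
    have := norm_nonneg (s : K × E).2
    positivity

/-- scaling of the second component -/
noncomputable def scl (hS : ConeSet S) (t : ℝ) : OnePoint S → OnePoint S
  | ∞ => ∞
  | OnePoint.some s => open Classical in
      if ht : 0 < t then
        OnePoint.some ⟨((s : K × E).1, t • (s : K × E).2), hS.smul_mem _ _ s.2 t ht⟩
      else ∞

@[simp] theorem scl_infty (hS : ConeSet S) (t : ℝ) : scl hS t ∞ = ∞ := rfl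

theorem scl_coe (hS : ConeSet S) {t : ℝ} (ht : 0 < t) (s : S) : scl hS t (s : OnePoint S) =
    ((⟨((s : K × E).1, t • (s : K × E).2), hS.smul_mem _ _ s.2 t ht⟩ : S) : OnePoint S) :=
  dif_pos ht

theorem scl_one (hS : ConeSet S) (x : OnePoint S) : scl hS 1 x = x := by
  induction x using OnePoint.rec with
  | infty => rfl
  | coe s =>
    rw [scl_coe hS one_pos]
    congr 1
    apply Subtype.ext
    simp

theorem eventually_infty [CompactSpace K] [T2Space K] [FiniteDimensional ℝ E] (hS : IsClosed S)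
    (R : ℝ) : ∀ᶠ x in 𝓝 (∞ : OnePoint S), ∀ s : S, x = (s : OnePoint S) → R < ‖(s : K × E).2‖ := by
  have hc := isCompact_le hS R
  refine (OnePoint.hasBasis_nhds_infty (X := S)).eventually_iff.2 ⟨_, ⟨hc.isClosed, hc⟩, ?_⟩
  rintro x (⟨y, hy, rfl⟩ | hx) s hs
  · rw [OnePoint.coe_eq_coe] at hs
    subst hs
    exact not_le.1 hy
  · rw [mem_singleton_iff] at hx
    exact absurd (hx.symm.trans hs) (OnePoint.infty_ne_coe s)

theorem eventually_infty' [FiniteDimensional ℝ V] (R : ℝ) :
    ∀ᶠ x in 𝓝 (∞ : OnePoint V), ∀ v : V, x = (v : OnePoint V) → R < ‖v‖ := by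
  have : ProperSpace V := FiniteDimensional.proper_real V
  have hc := isCompact_closedBall (0 : V) R
  refine (OnePoint.hasBasis_nhds_infty (X := V)).eventually_iff.2 ⟨_, ⟨hc.isClosed, hc⟩, ?_⟩
  rintro x (⟨y, hy, rfl⟩ | hx) s hs
  · rw [OnePoint.coe_eq_coe] at hs
    subst hs
    simpa using hy
  · rw [mem_singleton_iff] at hx
    exact absurd (hx.symm.trans hs) (OnePoint.infty_ne_coe s)

/-- scaling is jointly continuous at positive scalars -/
theorem scl_continuousAt [CompactSpace K] [T2Space K] [FiniteDimensional ℝ E] (hS : ConeSet S)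
    {t : ℝ} (ht : 0 < t) (x : OnePoint S) :
    ContinuousAt (fun q : ℝ × OnePoint S => scl hS q.1 q.2) (t, x) := by
  induction x using OnePoint.rec with
  | infty =>
    change Tendsto _ _ (𝓝 (∞ : OnePoint S))
    refine tendsto_infty fun R => ?_
    have h1 : ∀ᶠ q in 𝓝 (t, (∞ : OnePoint S)), t / 2 < (q : ℝ × OnePoint S).1 := by
      have : ContinuousAt (fun q : ℝ × OnePoint S => q.1) (t, ∞) := continuousAt_fst
      exact this.eventually (lt_mem_nhds (show t / 2 < t by linarith))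
    have h2 : ∀ᶠ q in 𝓝 (t, (∞ : OnePoint S)), ∀ s : S, (q : ℝ × OnePoint S).2 = s →
        |R| / (t / 2) < ‖(s : K × E).2‖ := by
      have : ContinuousAt (fun q : ℝ × OnePoint S => q.2) (t, ∞) := continuousAt_snd
      exact this.eventually (eventually_infty hS.closed _)
    filter_upwards [h1, h2] with q hq1 hq2 s hs
    obtain ⟨a, y⟩ := q
    have ha : 0 < a := lt_trans (by positivity) hq1
    induction y using OnePoint.rec with
    | infty => exact absurd hs (OnePoint.infty_ne_coe s)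
    | coe y =>
      rw [scl_coe hS ha, OnePoint.coe_eq_coe] at hs
      have h3 := hq2 y rfl
      rw [← hs]
      change R < ‖a • (y : K × E).2‖
      rw [norm_smul, Real.norm_of_nonneg ha.le]
      rw [div_lt_iff₀ (by positivity)] at h3
      have h4 : ‖(y : K × E).2‖ * (t / 2) ≤ a * ‖(y : K × E).2‖ := by
        rw [mul_comm]
        exact mul_le_mul_of_nonneg_right hq1.le (norm_nonneg _)
      exact lt_of_le_of_lt (le_abs_self R) (lt_of_lt_of_le h3 h4)
  | coe s =>
    have h0 : IsOpenEmbedding (Prod.map (id : ℝ → ℝ) ((↑) : S → OnePoint S)) :=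
      IsOpenEmbedding.id.prodMap OnePoint.isOpenEmbedding_coe
    have h1 : ContinuousAt ((fun q : ℝ × OnePoint S => scl hS q.1 q.2) ∘
        Prod.map (id : ℝ → ℝ) ((↑) : S → OnePoint S)) (t, s) := by
      change Tendsto _ _ (𝓝 (scl hS t (s : OnePoint S)))
      rw [scl_coe hS ht]
      refine tendsto_some (p := fun q : ℝ × S => ((q.2 : K × E).1, q.1 • (q.2 : K × E).2)) ?_ ?_
      · have : ContinuousAt (fun q : ℝ × S => q.1) (t, s) := continuousAt_fst
        filter_upwards [this.eventually (lt_mem_nhds ht)] with q hq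
        exact ⟨_, scl_coe hS hq q.2⟩
      · have h2 : Continuous fun q : ℝ × S => ((q.2 : K × E).1, q.1 • (q.2 : K × E).2) := by
          fun_prop
        exact h2.tendsto (t, s)
    exact (h0.continuousAt_iff).1 h1

/-- the affine maps `v ↦ (1 - t ^ 2) w₀ + t v` -/
def aff (w₀ : V) (t : ℝ) : OnePoint V → OnePoint V
  | ∞ => ∞
  | OnePoint.some v => (((1 - t ^ 2) • w₀ + t • v : V) : OnePoint V)

@[simp] theorem aff_infty (w₀ : V) (t : ℝ) : aff w₀ t ∞ = ∞ := rfl

@[simp] theorem aff_coe (w₀ : V) (t : ℝ) (v : V) :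
    aff w₀ t (v : OnePoint V) = (((1 - t ^ 2) • w₀ + t • v : V) : OnePoint V) := rfl

theorem tendsto_inftyV {Z : Type*} {l : Filter Z} {F : Z → OnePoint V}
    (h : ∀ R : ℝ, ∀ᶠ z in l, ∀ s : V, F z = (s : OnePoint V) → R < ‖s‖) :
    Tendsto F l (𝓝 (∞ : OnePoint V)) := by
  rw [(OnePoint.hasBasis_nhds_infty (X := V)).tendsto_right_iff]
  rintro s ⟨-, hs⟩
  obtain ⟨R, hR⟩ : ∃ R : ℝ, ∀ x ∈ s, ‖x‖ ≤ R := by
    obtain ⟨R, hR⟩ := (hs.image (f := fun x : V => ‖x‖) (by fun_prop)).bddAbove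
    exact ⟨R, fun x hx => hR ⟨x, hx, rfl⟩⟩
  filter_upwards [h R] with z hz
  induction hF : F z using OnePoint.rec with
  | infty => exact Or.inr rfl
  | coe x =>
    refine Or.inl ⟨x, fun hx => ?_, rfl⟩
    exact absurd (hR x hx) (not_le.2 (hz x hF))

theorem aff_continuousAt [FiniteDimensional ℝ V] (w₀ : V) {t : ℝ} (ht : 0 < t) (x : OnePoint V) :
    ContinuousAt (fun q : ℝ × OnePoint V => aff w₀ q.1 q.2) (t, x) := by
  induction x using OnePoint.rec with
  | infty =>
    change Tendsto _ _ (𝓝 (∞ : OnePoint V))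
    refine tendsto_inftyV fun R => ?_
    have h1 : ∀ᶠ q in 𝓝 (t, (∞ : OnePoint V)), t / 2 < (q : ℝ × OnePoint V).1 := by
      have : ContinuousAt (fun q : ℝ × OnePoint V => q.1) (t, ∞) := continuousAt_fst
      exact this.eventually (lt_mem_nhds (show t / 2 < t by linarith))
    have h1' : ∀ᶠ q in 𝓝 (t, (∞ : OnePoint V)), (q : ℝ × OnePoint V).1 < t + 1 := by
      have : ContinuousAt (fun q : ℝ × OnePoint V => q.1) (t, ∞) := continuousAt_fst
      exact this.eventually (gt_mem_nhds (show t < t + 1 by linarith))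
    have h2 : ∀ᶠ q in 𝓝 (t, (∞ : OnePoint V)), ∀ s : V, (q : ℝ × OnePoint V).2 = s →
        (|R| + (1 + (t + 1) ^ 2) * ‖w₀‖) / (t / 2) < ‖s‖ := by
      have : ContinuousAt (fun q : ℝ × OnePoint V => q.2) (t, ∞) := continuousAt_snd
      exact this.eventually (eventually_infty' _)
    filter_upwards [h1, h1', h2] with q hq1 hq1' hq2 s hs
    obtain ⟨a, y⟩ := q
    have ha : 0 < a := lt_trans (by positivity) hq1
    induction y using OnePoint.rec with
    | infty => exact absurd hs (OnePoint.infty_ne_coe s)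
    | coe y =>
      rw [aff_coe, OnePoint.coe_eq_coe] at hs
      have h3 := hq2 y rfl
      simp only at hq1 hq1'
      rw [div_lt_iff₀ (by positivity)] at h3
      have h4 : ‖y‖ * (t / 2) ≤ a * ‖y‖ := by
        rw [mul_comm]
        exact mul_le_mul_of_nonneg_right hq1.le (norm_nonneg _)
      have h5 : ‖a • y‖ ≤ ‖s‖ + ‖(1 - a ^ 2) • w₀‖ := by
        have e : a • y = s - (1 - a ^ 2) • w₀ := by rw [← hs]; abel
        rw [e]
        exact norm_sub_le _ _
      have h6 : ‖(1 - a ^ 2) • w₀‖ ≤ (1 + (t + 1) ^ 2) * ‖w₀‖ := by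
        rw [norm_smul]
        refine mul_le_mul_of_nonneg_right ?_ (norm_nonneg _)
        rw [Real.norm_eq_abs, abs_le]
        constructor <;> nlinarith
      rw [norm_smul, Real.norm_of_nonneg ha.le] at h5
      have h7 := le_abs_self R
      linarith
  | coe s =>
    have h0 : IsOpenEmbedding (Prod.map (id : ℝ → ℝ) ((↑) : V → OnePoint V)) :=
      IsOpenEmbedding.id.prodMap OnePoint.isOpenEmbedding_coe
    have h1 : ContinuousAt ((fun q : ℝ × OnePoint V => aff w₀ q.1 q.2) ∘
        Prod.map (id : ℝ → ℝ) ((↑) : V → OnePoint V)) (t, s) := by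
      have h2 : Continuous fun q : ℝ × V => (((1 - q.1 ^ 2) • w₀ + q.1 • q.2 : V) : OnePoint V) :=
        OnePoint.continuous_coe.comp (by fun_prop)
      exact h2.continuousAt
    exact (h0.continuousAt_iff).1 h1

section Main

variable [CompactSpace K] [T2Space K] [FiniteDimensional ℝ E] [FiniteDimensional ℝ V]
  {f : OnePoint V → OnePoint S} {w₀ : V} {k : V → K} {ξ : V → E} {D : V →L[ℝ] E}

/-- the data of a nondegenerate zero -/
structure NDZero (f : OnePoint V → OnePoint S) (w₀ : V) (k : V → K) (ξ : V → E)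
    (D : V →L[ℝ] E) : Prop where
  cont : Continuous f
  infty : f ∞ = ∞
  eq_loc : ∀ᶠ w in 𝓝 (0 : V), ∃ h : (k w, ξ w) ∈ S,
    f ((w₀ + w : V) : OnePoint V) = ((⟨(k w, ξ w), h⟩ : S) : OnePoint S)
  deriv : HasFDerivAt ξ D 0
  zero : ξ 0 = 0
  inj : Function.Injective D
  unique : ∀ (v : V) (s : S), f (v : OnePoint V) = (s : OnePoint S) → (s : K × E).2 = 0 → v = w₀

omit [TopologicalSpace K] [CompactSpace K] [T2Space K] [FiniteDimensional ℝ E] in
theorem lower_bound (hinj : Function.Injective D) :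
    ∃ m : ℝ, 0 < m ∧ ∀ v, m * ‖v‖ ≤ ‖D v‖ := by
  obtain ⟨K', hK', hD⟩ := (D : V →ₗ[ℝ] E).exists_antilipschitzWith (LinearMap.ker_eq_bot.2 hinj)
  refine ⟨(K' : ℝ)⁻¹, by positivity, fun v => ?_⟩
  have h1 : ‖v‖ ≤ K' * ‖D v‖ := by simpa using hD.le_mul_norm_sub v 0
  have hK : (0 : ℝ) < K' := by exact_mod_cast hK'
  rw [inv_mul_le_iff₀ hK]
  exact h1

theorem NDZero.bound (hS : ConeSet S) (h : NDZero f w₀ k ξ D) :
    ∃ c : ℝ, 0 < c ∧ ∀ (w : V) (s : S), f ((w₀ + w : V) : OnePoint V) = (s : OnePoint S) →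
      c * min ‖w‖ 1 ≤ ‖(s : K × E).2‖ := by
  have hproper : ProperSpace V := FiniteDimensional.proper_real V
  -- lower bound for `D`
  obtain ⟨m, hm0, hm⟩ := lower_bound h.inj
  -- near the zero
  obtain ⟨r, hr0, hr⟩ : ∃ r : ℝ, 0 < r ∧ ∀ w : V, ‖w‖ < r → (∃ h : (k w, ξ w) ∈ S,
      f ((w₀ + w : V) : OnePoint V) = ((⟨(k w, ξ w), h⟩ : S) : OnePoint S)) ∧
      m / 2 * ‖w‖ ≤ ‖ξ w‖ := by
    have h1 : ∀ᶠ w in 𝓝 (0 : V), ‖ξ w - ξ 0 - D (w - 0)‖ ≤ m / 2 * ‖w - 0‖ :=
      h.deriv.isLittleO.def (by positivity)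
    obtain ⟨r, hr0, hr⟩ := Metric.eventually_nhds_iff.1 (h.eq_loc.and h1)
    refine ⟨r, hr0, fun w hw => ?_⟩
    obtain ⟨h2, h3⟩ := hr (by rwa [dist_zero_right])
    refine ⟨h2, ?_⟩
    rw [h.zero, sub_zero, sub_zero] at h3
    have h4 := hm w
    have h5 : ‖D w‖ ≤ ‖ξ w‖ + ‖ξ w - D w‖ := by
      have e : D w = ξ w - (ξ w - D w) := by abel
      calc ‖D w‖ = ‖ξ w - (ξ w - D w)‖ := by rw [← e]
        _ ≤ _ := norm_sub_le _ _
    linarith
  -- away from the zero
  obtain ⟨c', hc0, hc⟩ : ∃ c' : ℝ, 0 < c' ∧ ∀ w : V, r ≤ ‖w‖ → ∀ s : S,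
      f ((w₀ + w : V) : OnePoint V) = (s : OnePoint S) → c' ≤ ‖(s : K × E).2‖ := by
    have hT : IsCompact ((((↑) : V → OnePoint V) '' Metric.ball w₀ r)ᶜ) :=
      (OnePoint.isOpenEmbedding_coe.isOpenMap _ Metric.isOpen_ball).isClosed_compl.isCompact
    have hne : ((((↑) : V → OnePoint V) '' Metric.ball w₀ r)ᶜ).Nonempty := by
      refine ⟨∞, ?_⟩
      rintro ⟨v, -, hv⟩
      exact OnePoint.coe_ne_infty v hv
    have hcont : Continuous fun x => inv1 (f x) := (continuous_inv1 hS.closed).comp h.cont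
    obtain ⟨x₁, hx₁, hmax⟩ := hT.exists_isMaxOn hne hcont.continuousOn
    have hM : inv1 (f x₁) < 1 := by
      rcases lt_or_eq_of_le (inv1_le_one (f x₁)) with h1 | h1
      · exact h1
      · exfalso
        induction hF : f x₁ using OnePoint.rec with
        | infty => rw [hF, inv1_infty] at h1; exact zero_ne_one h1
        | coe s =>
          rw [hF, inv1_coe, inv_eq_one] at h1
          have h2 : (s : K × E).2 = 0 := by
            rw [← norm_eq_zero]; linarith
          induction x₁ using OnePoint.rec with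
          | infty => rw [h.infty] at hF; exact OnePoint.infty_ne_coe s hF
          | coe v =>
            have := h.unique v s hF h2
            subst this
            exact hx₁ ⟨_, Metric.mem_ball_self hr0, rfl⟩
    refine ⟨1 - inv1 (f x₁), by linarith, fun w hw s hs => ?_⟩
    have hmem : ((w₀ + w : V) : OnePoint V) ∈ (((↑) : V → OnePoint V) '' Metric.ball w₀ r)ᶜ := by
      rintro ⟨v, hv, hv'⟩
      rw [OnePoint.coe_eq_coe] at hv'
      subst hv'
      rw [Metric.mem_ball, dist_eq_norm, add_sub_cancel_left] at hv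
      exact absurd hw (not_le.2 hv)
    have h1 : inv1 (f ((w₀ + w : V) : OnePoint V)) ≤ inv1 (f x₁) := hmax hmem
    rw [hs, inv1_coe] at h1
    have h2 := norm_nonneg (s : K × E).2
    have h3 : (0 : ℝ) < 1 + ‖(s : K × E).2‖ := by positivity
    have h4 : 1 ≤ inv1 (f x₁) * (1 + ‖(s : K × E).2‖) := by
      rw [inv_le_iff_one_le_mul₀ h3] at h1
      exact h1
    have h5 : inv1 (f x₁) * ‖(s : K × E).2‖ ≤ ‖(s : K × E).2‖ := by
      have := mul_le_mul_of_nonneg_right hM.le h2
      linarith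
    linarith
  refine ⟨min (m / 2) c', by positivity, fun w s hs => ?_⟩
  rcases lt_or_ge ‖w‖ r with hw | hw
  · obtain ⟨⟨h1, h2⟩, h3⟩ := hr w hw
    rw [h2, OnePoint.coe_eq_coe] at hs
    rw [← hs]
    refine le_trans ?_ h3
    exact mul_le_mul (min_le_left _ _) (min_le_left _ _) (by positivity) (by positivity)
  · refine le_trans ?_ (hc w hw s hs)
    calc min (m / 2) c' * min ‖w‖ 1 ≤ c' * 1 :=
          mul_le_mul (min_le_right _ _) (min_le_right _ _) (by positivity) hc0.le
      _ = c' := mul_one _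

/-- the base component is continuous at the zero -/
theorem NDZero.tendsto_k (h : NDZero f w₀ k ξ D) : Tendsto k (𝓝 0) (𝓝 (k 0)) := by
  obtain ⟨h0, h00⟩ := h.eq_loc.self_of_nhds
  intro U hU
  have h1 : Continuous fun w : V => f ((w₀ + w : V) : OnePoint V) :=
    h.cont.comp (OnePoint.continuous_coe.comp (by fun_prop))
  have h2 := h1.tendsto 0
  rw [h00, OnePoint.nhds_coe_eq] at h2
  have h3 : (fun s : S => (s : K × E).1) ⁻¹' U ∈ 𝓝 (⟨(k 0, ξ 0), h0⟩ : S) := by
    have : Continuous fun s : S => (s : K × E).1 := by fun_prop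
    exact this.continuousAt.preimage_mem_nhds hU
  have h4 : ((↑) : S → OnePoint S) '' ((fun s : S => (s : K × E).1) ⁻¹' U) ∈
      map ((↑) : S → OnePoint S) (𝓝 (⟨(k 0, ξ 0), h0⟩ : S)) := image_mem_map h3
  have h5 := h2 h4
  rw [mem_map] at h5 ⊢
  filter_upwards [h5, h.eq_loc] with w hw hw'
  obtain ⟨h6, h7⟩ := hw'
  rw [mem_preimage, h7] at hw
  obtain ⟨s, hs, hs'⟩ := hw
  rw [OnePoint.coe_eq_coe] at hs'
  subst hs'
  exact hs

theorem NDZero.mem (hS : ConeSet S) (h : NDZero f w₀ k ξ D) (v : V) : (k 0, D v) ∈ S := by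
  have h1 : Tendsto (fun t : ℝ => t • v) (𝓝[>] 0) (𝓝 0) := by
    have : Tendsto (fun t : ℝ => t • v) (𝓝 0) (𝓝 ((0 : ℝ) • v)) :=
      (continuous_id.smul continuous_const).tendsto 0
    rw [zero_smul] at this
    exact this.mono_left nhdsWithin_le_nhds
  have h2 : Tendsto (fun t : ℝ => t⁻¹ • ξ (t • v)) (𝓝[>] 0) (𝓝 (D v)) := by
    have h3 : (fun t : ℝ => ξ (t • v) - ξ 0 - D (t • v - 0)) =o[𝓝[>] 0] fun t : ℝ => t • v - 0 :=
      h.deriv.isLittleO.comp_tendsto h1
    have h4 : (fun t : ℝ => t • v - 0) =O[𝓝[>] 0] fun t : ℝ => t := by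
      refine Asymptotics.IsBigO.of_bound ‖v‖ (Eventually.of_forall fun t => ?_)
      rw [sub_zero, norm_smul, mul_comm]
    have h5 := (h3.trans_isBigO h4).tendsto_inv_smul_nhds_zero
    have h6 : Tendsto (fun t : ℝ => t⁻¹ • (ξ (t • v) - ξ 0 - D (t • v - 0)) + D v) (𝓝[>] 0)
        (𝓝 (0 + D v)) := h5.add tendsto_const_nhds
    rw [zero_add] at h6
    refine h6.congr' ?_
    filter_upwards [self_mem_nhdsWithin] with t ht
    rw [h.zero, sub_zero, sub_zero, smul_sub, map_smul, inv_smul_smul₀ (ne_of_gt ht)]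
    abel
  have h3 : Tendsto (fun t : ℝ => (k (t • v), t⁻¹ • ξ (t • v))) (𝓝[>] 0) (𝓝 (k 0, D v)) :=
    (h.tendsto_k.comp h1).prodMk_nhds h2
  refine hS.closed.mem_of_tendsto h3 ?_
  filter_upwards [self_mem_nhdsWithin, h1.eventually h.eq_loc] with t ht h4
  exact hS.smul_mem _ _ h4.choose _ (inv_pos.2 ht)

/-- the fibre map `v ↦ (k₀, D v)` -/
def fibM {k₀ : K} {D : V →L[ℝ] E} (h0 : ∀ v, (k₀, D v) ∈ S) : OnePoint V → OnePoint S
  | ∞ => ∞
  | OnePoint.some v => ((⟨(k₀, D v), h0 v⟩ : S) : OnePoint S)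

open scoped Classical in
/-- the homotopy -/
noncomputable def homot (hS : ConeSet S) (f : OnePoint V → OnePoint S) (w₀ : V) {k₀ : K}
    {D : V →L[ℝ] E} (h0 : ∀ v, (k₀, D v) ∈ S) (t : ℝ) (x : OnePoint V) : OnePoint S :=
  if 0 < t then scl hS t⁻¹ (f (aff w₀ t x)) else fibM h0 x

theorem homot_pos (hS : ConeSet S) (h0 : ∀ v, (k 0, D v) ∈ S) {t : ℝ} (ht : 0 < t)
    (x : OnePoint V) : homot hS f w₀ h0 t x = scl hS t⁻¹ (f (aff w₀ t x)) := if_pos ht

theorem homot_zero (hS : ConeSet S) (h0 : ∀ v, (k 0, D v) ∈ S) (x : OnePoint V) :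
    homot hS f w₀ h0 0 x = fibM h0 x := if_neg (lt_irrefl 0)

theorem aff_add (w₀ : V) (t : ℝ) (v : V) : (1 - t ^ 2) • w₀ + t • v = w₀ + t • (v - t • w₀) := by
  rw [smul_sub, smul_smul, sub_smul, one_smul, pow_two]
  abel

/-- continuity of the homotopy at `t = 0`, finite points -/
theorem homot_tendsto_coe (hS : ConeSet S) (h : NDZero f w₀ k ξ D) (h0 : ∀ v, (k 0, D v) ∈ S)
    (v : V) : Tendsto (fun q : unitInterval × V => homot hS f w₀ h0 q.1 (q.2 : OnePoint V))
      (𝓝 (0, v)) (𝓝 ((⟨(k 0, D v), h0 v⟩ : S) : OnePoint S)) := by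
  obtain ⟨W, hW⟩ : ∃ W : unitInterval × V → V,
      W = fun q => (q.1 : ℝ) • (q.2 - (q.1 : ℝ) • w₀) := ⟨_, rfl⟩
  have hWc : Continuous W := by rw [hW]; fun_prop
  have hW0 : Tendsto W (𝓝 (0, v)) (𝓝 0) := by
    have := hWc.tendsto (0, v)
    have e : W (0, v) = 0 := by rw [hW]; simp
    rwa [e] at this
  have hO : (fun q => W q - 0) =O[𝓝 (0, v)] fun q : unitInterval × V => (q.1 : ℝ) := by
    have h1 : Tendsto (fun q : unitInterval × V => ‖q.2 - (q.1 : ℝ) • w₀‖) (𝓝 (0, v))
        (𝓝 ‖v - (0 : ℝ) • w₀‖) := by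
      have : Continuous fun q : unitInterval × V => ‖q.2 - (q.1 : ℝ) • w₀‖ := by fun_prop
      exact this.tendsto (0, v)
    have h2 := h1.eventually (gt_mem_nhds (show ‖v - (0 : ℝ) • w₀‖ < ‖v‖ + 1 by simp))
    refine Asymptotics.IsBigO.of_bound (‖v‖ + 1) ?_
    filter_upwards [h2] with q hq
    rw [hW, sub_zero]
    simp only
    rw [norm_smul, mul_comm]
    exact mul_le_mul_of_nonneg_right hq.le (norm_nonneg _)
  have ho := (h.deriv.isLittleO.comp_tendsto hW0).trans_isBigO hO
  have hz := ho.tendsto_inv_smul_nhds_zero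
  refine tendsto_some (p := fun q : unitInterval × V => (k (W q), (q.1 : ℝ)⁻¹ •
    (ξ (W q) - ξ 0 - D (W q - 0)) + D (q.2 - (q.1 : ℝ) • w₀))) ?_ ?_
  · filter_upwards [hW0.eventually h.eq_loc] with q hq
    obtain ⟨t, v'⟩ := q
    obtain ⟨h1, h2⟩ := hq
    rcases lt_or_eq_of_le t.2.1 with ht | ht
    · have e1 : (t : ℝ)⁻¹ • (ξ (W (t, v')) - ξ 0 - D (W (t, v') - 0)) + D (v' - (t : ℝ) • w₀) =
          (t : ℝ)⁻¹ • ξ (W (t, v')) := by
        have e2 : D (W (t, v')) = (t : ℝ) • D (v' - (t : ℝ) • w₀) := by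
          rw [hW]
          exact map_smul D _ _
        rw [h.zero, sub_zero, sub_zero, smul_sub, e2, inv_smul_smul₀ (ne_of_gt ht)]
        abel
      have h3 := hS.smul_mem _ _ h1 _ (inv_pos.2 ht)
      simp only
      rw [e1]
      refine ⟨h3, ?_⟩
      rw [homot_pos hS h0 ht, aff_coe, aff_add]
      have e3 : (t : ℝ) • (v' - (t : ℝ) • w₀) = W (t, v') := by rw [hW]
      rw [e3, h2, scl_coe hS (inv_pos.2 ht)]
    · have ht' : t = 0 := Subtype.ext ht.symm
      subst ht'
      have e1 : W (0, v') = 0 := by rw [hW]; simp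
      have e2 : (((0 : unitInterval) : ℝ))⁻¹ • (ξ (W (0, v')) - ξ 0 - D (W (0, v') - 0)) +
          D (v' - ((0 : unitInterval) : ℝ) • w₀) = D v' := by simp
      simp only
      rw [e2, e1]
      refine ⟨h0 v', ?_⟩
      exact homot_zero hS h0 _
  · have h3 : Tendsto (fun q : unitInterval × V => D (q.2 - (q.1 : ℝ) • w₀)) (𝓝 (0, v))
        (𝓝 (D v)) := by
      have : Continuous fun q : unitInterval × V => D (q.2 - (q.1 : ℝ) • w₀) := by fun_prop
      have h4 := this.tendsto (0, v)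
      simpa using h4
    have h5 := hz.add h3
    rw [zero_add] at h5
    exact (h.tendsto_k.comp hW0).prodMk_nhds h5

/-- continuity of the homotopy at `t = 0`, the point at infinity -/
theorem homot_tendsto_infty (hS : ConeSet S) (h : NDZero f w₀ k ξ D)
    (h0 : ∀ v, (k 0, D v) ∈ S) :
    Tendsto (fun q : unitInterval × OnePoint V => homot hS f w₀ h0 q.1 q.2)
      (𝓝 (0, ∞)) (𝓝 (∞ : OnePoint S)) := by
  obtain ⟨m, hm0, hm⟩ := lower_bound h.inj
  obtain ⟨c, hc0, hc⟩ := h.bound hS
  refine tendsto_infty fun R => ?_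
  have h1 : ∀ᶠ q in 𝓝 ((0 : unitInterval), (∞ : OnePoint V)),
      ((q : unitInterval × OnePoint V).1 : ℝ) < c / (|R| + 1) := by
    have : Continuous fun q : unitInterval × OnePoint V => (q.1 : ℝ) := by fun_prop
    exact this.continuousAt.eventually (gt_mem_nhds (by
      change (0 : ℝ) < _
      positivity))
  have h2 : ∀ᶠ q in 𝓝 ((0 : unitInterval), (∞ : OnePoint V)), ∀ s : V,
      (q : unitInterval × OnePoint V).2 = s → |R| / m + (|R| / c + ‖w₀‖) < ‖s‖ := by
    have : ContinuousAt (fun q : unitInterval × OnePoint V => q.2) (0, ∞) := continuousAt_snd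
    exact this.eventually (eventually_infty' _)
  filter_upwards [h1, h2] with q hq1 hq2 s hs
  obtain ⟨t, x⟩ := q
  simp only at hq1 hs
  have hRm : 0 ≤ |R| / m := by positivity
  have hRc : 0 ≤ |R| / c := by positivity
  have hw0 := norm_nonneg w₀
  induction x using OnePoint.rec with
  | infty =>
    exfalso
    rcases lt_or_eq_of_le t.2.1 with ht | ht
    · rw [homot_pos hS h0 ht, aff_infty, h.infty, scl_infty] at hs
      exact OnePoint.infty_ne_coe s hs
    · have ht' : t = 0 := Subtype.ext ht.symm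
      subst ht'
      have e : homot hS f w₀ h0 ((0 : unitInterval) : ℝ) (∞ : OnePoint V) = ∞ :=
        homot_zero hS h0 _
      rw [e] at hs
      exact OnePoint.infty_ne_coe s hs
  | coe v =>
    have h3 := hq2 v rfl
    rcases lt_or_eq_of_le t.2.1 with ht | ht
    · rw [homot_pos hS h0 ht, aff_coe, aff_add] at hs
      have ht1 : (t : ℝ) ≤ 1 := t.2.2
      induction hF : f ((w₀ + (t : ℝ) • (v - (t : ℝ) • w₀) : V) : OnePoint V) using
        OnePoint.rec with
      | infty =>
        rw [hF, scl_infty] at hs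
        exact absurd hs (OnePoint.infty_ne_coe s)
      | coe s' =>
        have h4 := hc _ _ hF
        rw [hF, scl_coe hS (inv_pos.2 ht), OnePoint.coe_eq_coe] at hs
        rw [← hs]
        change R < ‖(t : ℝ)⁻¹ • (s' : K × E).2‖
        rw [norm_smul, Real.norm_of_nonneg (inv_pos.2 ht).le, lt_inv_mul_iff₀ ht]
        refine lt_of_lt_of_le ?_ h4
        have h5 : ‖v‖ - ‖w₀‖ ≤ ‖v - (t : ℝ) • w₀‖ := by
          have h6 := norm_sub_norm_le v ((t : ℝ) • w₀)
          have h7 : ‖(t : ℝ) • w₀‖ ≤ ‖w₀‖ := by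
            rw [norm_smul, Real.norm_of_nonneg ht.le]
            exact mul_le_of_le_one_left hw0 ht1
          linarith
        have h8 : (t : ℝ) * |R| < c := by
          rw [lt_div_iff₀ (by positivity)] at hq1
          nlinarith [abs_nonneg R]
        have h9 : (t : ℝ) * R ≤ (t : ℝ) * |R| := mul_le_mul_of_nonneg_left (le_abs_self R) ht.le
        rcases le_total 1 (‖(t : ℝ) • (v - (t : ℝ) • w₀)‖) with h10 | h10
        · rw [min_eq_right h10, mul_one]
          linarith
        · rw [min_eq_left h10, norm_smul, Real.norm_of_nonneg ht.le]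
          have h11 : |R| / c < ‖v - (t : ℝ) • w₀‖ := by linarith
          rw [div_lt_iff₀ hc0] at h11
          nlinarith
    · have ht' : t = 0 := Subtype.ext ht.symm
      subst ht'
      have e : homot hS f w₀ h0 ((0 : unitInterval) : ℝ) (v : OnePoint V) =
        ((⟨(k 0, D v), h0 v⟩ : S) : OnePoint S) := homot_zero hS h0 _
      rw [e, OnePoint.coe_eq_coe] at hs
      rw [← hs]
      change R < ‖D v‖
      have h4 := hm v
      have h5 : |R| / m < ‖v‖ := by linarith
      rw [div_lt_iff₀ hm0] at h5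
      have h6 := le_abs_self R
      linarith

/-- **The derivative homotopy.** A pointed map `V⁺ → S⁺` with one nondegenerate zero is pointed
homotopic to the fibre map `v ↦ (k₀, D v)`. -/
theorem NDZero.exists_homotopy (hS : ConeSet S) (h : NDZero f w₀ k ξ D)
    (h0 : ∀ v, (k 0, D v) ∈ S) :
    ∃ H : unitInterval → OnePoint V → OnePoint S,
      Continuous (fun q : unitInterval × OnePoint V => H q.1 q.2) ∧ (∀ τ, H τ ∞ = ∞) ∧
      (∀ x, H 0 x = fibM h0 x) ∧ ∀ x, H 1 x = f x := by
  refine ⟨fun τ x => homot hS f w₀ h0 τ x, ?_, ?_, ?_, ?_⟩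
  · rw [continuous_iff_continuousAt]
    rintro ⟨τ, x⟩
    rcases lt_or_eq_of_le τ.2.1 with ht | ht
    · have h1 : ContinuousAt (fun q : unitInterval × OnePoint V =>
          scl hS (q.1 : ℝ)⁻¹ (f (aff w₀ q.1 q.2))) (τ, x) := by
        have h2 : ContinuousAt (fun q : unitInterval × OnePoint V => aff w₀ (q.1 : ℝ) q.2)
            (τ, x) := by
          have h3 : ContinuousAt (fun q : unitInterval × OnePoint V => ((q.1 : ℝ), q.2)) (τ, x) := by
            fun_prop
          exact (aff_continuousAt w₀ ht x).comp (f := fun q : unitInterval × OnePoint V =>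
            ((q.1 : ℝ), q.2)) h3
        have h4 : ContinuousAt (fun q : unitInterval × OnePoint V =>
            ((q.1 : ℝ)⁻¹, f (aff w₀ (q.1 : ℝ) q.2))) (τ, x) := by
          refine ContinuousAt.prodMk ?_ (h.cont.continuousAt.comp h2)
          refine ContinuousAt.inv₀ ?_ (ne_of_gt ht)
          fun_prop
        exact (scl_continuousAt hS (inv_pos.2 ht) (f (aff w₀ τ x))).comp
          (f := fun q : unitInterval × OnePoint V => ((q.1 : ℝ)⁻¹, f (aff w₀ (q.1 : ℝ) q.2))) h4
      refine h1.congr ?_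
      have h5 : ∀ᶠ q in 𝓝 (τ, x), 0 < ((q : unitInterval × OnePoint V).1 : ℝ) := by
        have : Continuous fun q : unitInterval × OnePoint V => (q.1 : ℝ) := by fun_prop
        exact this.continuousAt.eventually (lt_mem_nhds ht)
      filter_upwards [h5] with q hq
      exact (homot_pos hS h0 hq _).symm
    · have ht' : τ = 0 := Subtype.ext ht.symm
      subst ht'
      have e : ∀ y : OnePoint V, homot hS f w₀ h0 ((0 : unitInterval) : ℝ) y = fibM h0 y :=
        fun y => homot_zero hS h0 y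
      induction x using OnePoint.rec with
      | infty =>
        change Tendsto _ _ (𝓝 (homot hS f w₀ h0 ((0 : unitInterval) : ℝ) ∞))
        rw [e]
        exact homot_tendsto_infty hS h h0
      | coe v =>
        have h1 : IsOpenEmbedding (Prod.map (id : unitInterval → unitInterval)
            ((↑) : V → OnePoint V)) :=
          IsOpenEmbedding.id.prodMap OnePoint.isOpenEmbedding_coe
        have h2 : ContinuousAt ((fun q : unitInterval × OnePoint V =>
            homot hS f w₀ h0 q.1 q.2) ∘ Prod.map (id : unitInterval → unitInterval)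
              ((↑) : V → OnePoint V)) (0, v) := by
          change Tendsto _ _ (𝓝 (homot hS f w₀ h0 ((0 : unitInterval) : ℝ) (v : OnePoint V)))
          rw [e]
          exact homot_tendsto_coe hS h h0 v
        exact h1.continuousAt_iff.1 h2
  · intro τ
    rcases lt_or_eq_of_le τ.2.1 with ht | ht
    · change homot hS f w₀ h0 τ ∞ = ∞
      rw [homot_pos hS h0 ht, aff_infty, h.infty, scl_infty]
    · have ht' : τ = 0 := Subtype.ext ht.symm
      subst ht'
      exact homot_zero hS h0 _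
  · intro x
    exact homot_zero hS h0 _
  · intro x
    change homot hS f w₀ h0 ((1 : unitInterval) : ℝ) x = f x
    rw [homot_pos hS h0 (by exact one_pos)]
    have e1 : (((1 : unitInterval) : ℝ))⁻¹ = 1 := by simp
    rw [e1, scl_one]
    congr 1
    induction x using OnePoint.rec with
    | infty => rfl
    | coe v =>
      rw [aff_coe, OnePoint.coe_eq_coe]
      simp

end Main

end Vale.Agent.P093.A
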