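import Mathlib.Analysis.SpecialFunctions.Pow.Real
import Mathlib.Topology.Order.Lattice
import Mathlib.Tactic

/-!
# P093, part A: the exit lemma for the nested Hopf design

Pointwise and explicit, for every `κ`. The direction `n k` is the Hopf image of the auxiliary line
`q_k`; where the `k`-th component `F_k` of the family does not vanish and `|y_k| ≥ ρ_k / 2`, it is
the direction of `y_k = (nF_k, f_{2k+1}, f_{2k+2})`.
-/

namespace Vale.Agent.P093.A.Exit

/-- nested radial functions `F₀ = f₀`, `F_{l+1} = |(F_l, f_{2l+1}, f_{2l+2})| - ρ_l` -/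
noncomputable def nR {Z : Type*} (f : ℕ → Z → ℝ) (ρ : ℕ → ℝ) : ℕ → Z → ℝ
  | 0 => f 0
  | l + 1 => fun z => Real.sqrt (nR f ρ l z ^ 2 + f (2 * l + 1) z ^ 2 + f (2 * l + 2) z ^ 2) - ρ l

/-- `|(F_l, f_{2l+1}, f_{2l+2})|` -/
noncomputable def rR {Z : Type*} (f : ℕ → Z → ℝ) (ρ : ℕ → ℝ) (l : ℕ) (z : Z) : ℝ :=
  Real.sqrt (nR f ρ l z ^ 2 + f (2 * l + 1) z ^ 2 + f (2 * l + 2) z ^ 2)

/-- the shifted family -/
noncomputable def shF {Z : Type*} (f : ℕ → Z → ℝ) (ρ : ℕ → ℝ) : ℕ → Z → ℝ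
  | 0 => nR f ρ 1
  | j + 1 => f (j + 3)

theorem nR_shF {Z : Type*} (f : ℕ → Z → ℝ) (ρ : ℕ → ℝ) (l : ℕ) (z : Z) :
    nR (shF f ρ) (fun i => ρ (i + 1)) l z = nR f ρ (l + 1) z := by
  induction l generalizing z with
  | zero => rfl
  | succ l ih =>
    have h1 : nR (shF f ρ) (fun i => ρ (i + 1)) (l + 1) z =
      Real.sqrt (nR (shF f ρ) (fun i => ρ (i + 1)) l z ^ 2 + shF f ρ (2 * l + 1) z ^ 2 +
        shF f ρ (2 * l + 2) z ^ 2) - ρ (l + 1) := rfl
    have h2 : nR f ρ (l + 1 + 1) z = Real.sqrt (nR f ρ (l + 1) z ^ 2 +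
      f (2 * (l + 1) + 1) z ^ 2 + f (2 * (l + 1) + 2) z ^ 2) - ρ (l + 1) := rfl
    rw [h1, h2, ih]
    rfl

theorem rR_shF {Z : Type*} (f : ℕ → Z → ℝ) (ρ : ℕ → ℝ) (l : ℕ) (z : Z) :
    rR (shF f ρ) (fun i => ρ (i + 1)) l z = rR f ρ (l + 1) z := by
  unfold rR
  rw [nR_shF]
  rfl

variable {Z : Type*}

/-- cut-off, `1` for `t ≤ -r/2`, `0` for `t ≥ -r/4` -/
noncomputable def cut (r t : ℝ) : ℝ := max 0 (min 1 (-(4 * t / r) - 1))

theorem cut_one {r t : ℝ} (hr : 0 < r) (h : t ≤ -r / 2) : cut r t = 1 := by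
  unfold cut
  have h1 : 1 ≤ -(4 * t / r) - 1 := by
    have : 4 * t / r ≤ -2 := by
      rw [div_le_iff₀ hr]
      linarith
    linarith
  rw [min_eq_left h1]
  exact max_eq_right zero_le_one

theorem cut_zero {r t : ℝ} (hr : 0 < r) (h : -r / 4 ≤ t) : cut r t = 0 := by
  unfold cut
  have h1 : -(4 * t / r) - 1 ≤ 0 := by
    have : -1 ≤ 4 * t / r := by
      rw [le_div_iff₀ hr]
      linarith
    linarith
  exact max_eq_left ((min_le_right _ _).trans h1)

theorem cut_nonneg (r t : ℝ) : 0 ≤ cut r t := le_max_left _ _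

theorem cut_le_one (r t : ℝ) : cut r t ≤ 1 := max_le zero_le_one (min_le_left _ _)

/-- the pushed point, as a function of the data of one level -/
noncomputable def psh (r T c t R a : ℝ) (f n : ℝ) : ℝ :=
  max (t + r) (r / 4) / max R (r / 4) * f + max (min 1 (a / c)) (cut r t) * (T + 1) * n

section step

variable {r T c t R a f₀ f₁ f₂ n₀ n₁ n₂ : ℝ}

theorem psh_radial (hr : 0 < r) (hT : 0 ≤ T) (hc : 0 < c) (ha : 0 ≤ a)
    (h2 : r / 2 ≤ R) (ht : -r / 4 ≤ t)
    (hn : 0 < a → f₀ = R * n₀ ∧ f₁ = R * n₁ ∧ f₂ = R * n₂) :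
    ∃ M, (t + r) / R ≤ M ∧ psh r T c t R a f₀ n₀ = M * f₀ ∧ psh r T c t R a f₁ n₁ = M * f₁ ∧
      psh r T c t R a f₂ n₂ = M * f₂ := by
  have hR0 : 0 < R := by linarith
  have e1 : max (t + r) (r / 4) = t + r := max_eq_left (by linarith)
  have e2 : max R (r / 4) = R := max_eq_left (by linarith)
  have e3 : cut r t = 0 := cut_zero hr ht
  rcases ha.eq_or_lt with h0 | h0
  · refine ⟨(t + r) / R, le_refl _, ?_, ?_, ?_⟩ <;>
    · unfold psh
      rw [e1, e2, e3, ← h0, zero_div, min_eq_right zero_le_one, max_self]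
      ring
  · obtain ⟨g0, g1, g2⟩ := hn h0
    have hs : 0 ≤ max (min 1 (a / c)) (cut r t) := (cut_nonneg r t).trans (le_max_right _ _)
    refine ⟨(t + r) / R + max (min 1 (a / c)) (cut r t) * (T + 1) / R, ?_, ?_, ?_, ?_⟩
    · have : 0 ≤ max (min 1 (a / c)) (cut r t) * (T + 1) / R := by positivity
      linarith
    · unfold psh
      rw [e1, e2]
      have : n₀ = f₀ / R := by rw [g0]; field_simp
      rw [this]; ring
    · unfold psh
      rw [e1, e2]
      have : n₁ = f₁ / R := by rw [g1]; field_simp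
      rw [this]; ring
    · unfold psh
      rw [e1, e2]
      have : n₂ = f₂ / R := by rw [g2]; field_simp
      rw [this]; ring

theorem psh_far (hr : 0 < r) (hr' : r ≤ 1 / 32) (hT : 0 ≤ T)
    (hR : R = Real.sqrt (f₀ ^ 2 + f₁ ^ 2 + f₂ ^ 2))
    (hn : n₀ ^ 2 + n₁ ^ 2 + n₂ ^ 2 = 1)
    (hs : max (min 1 (a / c)) (cut r t) = 1) (ht : t + r ≤ r / 2) :
    (T + 1 / 4) ^ 2 ≤ psh r T c t R a f₀ n₀ ^ 2 + psh r T c t R a f₁ n₁ ^ 2 +
      psh r T c t R a f₂ n₂ ^ 2 := by
  have hR0 : 0 ≤ R := by rw [hR]; exact Real.sqrt_nonneg _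
  have hRsq : R ^ 2 = f₀ ^ 2 + f₁ ^ 2 + f₂ ^ 2 := by
    rw [hR, Real.sq_sqrt (by positivity)]
  set m := max (t + r) (r / 4) / max R (r / 4) with hm
  have hm0 : 0 ≤ m := by
    rw [hm]
    have : 0 < r / 4 := by linarith
    exact div_nonneg (this.le.trans (le_max_right _ _)) (this.le.trans (le_max_right _ _))
  have hmR : m * R ≤ r / 2 := by
    rw [hm]
    have h3 : 0 < max R (r / 4) := lt_of_lt_of_le (by linarith) (le_max_right _ _)
    have h4 : max (t + r) (r / 4) ≤ r / 2 := max_le ht (by linarith)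
    have h5 : R / max R (r / 4) ≤ 1 := (div_le_one h3).2 (le_max_left _ _)
    have h6 : 0 ≤ R / max R (r / 4) := div_nonneg hR0 h3.le
    have h7 : max (t + r) (r / 4) / max R (r / 4) * R =
      max (t + r) (r / 4) * (R / max R (r / 4)) := by ring
    rw [h7]
    have h8 : 0 ≤ max (t + r) (r / 4) := le_trans (by linarith) (le_max_right _ _)
    nlinarith
  have hcs : (f₀ * n₀ + f₁ * n₁ + f₂ * n₂) ^ 2 ≤ R ^ 2 := by
    rw [hRsq]
    nlinarith [sq_nonneg (f₀ * n₁ - f₁ * n₀), sq_nonneg (f₀ * n₂ - f₂ * n₀),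
      sq_nonneg (f₁ * n₂ - f₂ * n₁)]
  have hcs' : -R ≤ f₀ * n₀ + f₁ * n₁ + f₂ * n₂ := (abs_le_of_sq_le_sq' hcs hR0).1
  unfold psh
  rw [hs, ← hm]
  have e : (m * f₀ + 1 * (T + 1) * n₀) ^ 2 + (m * f₁ + 1 * (T + 1) * n₁) ^ 2 +
      (m * f₂ + 1 * (T + 1) * n₂) ^ 2 = (m * R) ^ 2 +
        2 * (T + 1) * (m * (f₀ * n₀ + f₁ * n₁ + f₂ * n₂)) + (T + 1) ^ 2 := by
    have : (m * R) ^ 2 = m ^ 2 * (f₀ ^ 2 + f₁ ^ 2 + f₂ ^ 2) := by rw [mul_pow, hRsq]
    rw [this]
    linear_combination (T + 1) ^ 2 * hn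
  rw [e]
  have h9 : -(m * R) ≤ m * (f₀ * n₀ + f₁ * n₁ + f₂ * n₂) := by nlinarith
  have h10 : (T + 1 - m * R) ^ 2 ≤ (m * R) ^ 2 +
      2 * (T + 1) * (m * (f₀ * n₀ + f₁ * n₁ + f₂ * n₂)) + (T + 1) ^ 2 := by nlinarith
  refine le_trans ?_ h10
  have h11 : T + 1 / 4 ≤ T + 1 - m * R := by linarith
  exact pow_le_pow_left₀ (by linarith) h11 2

end step

variable [TopologicalSpace Z]

theorem nR_continuous {f : ℕ → Z → ℝ} {ρ : ℕ → ℝ} (hf : ∀ j, Continuous (f j)) (l : ℕ) :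
    Continuous (nR f ρ l) := by
  induction l with
  | zero => exact hf 0
  | succ l ih =>
    have h : Continuous fun y => Real.sqrt (nR f ρ l y ^ 2 + f (2 * l + 1) y ^ 2 +
        f (2 * l + 2) y ^ 2) - ρ l :=
      ((((ih.pow 2).add ((hf _).pow 2)).add ((hf _).pow 2)).sqrt).sub continuous_const
    exact h

/-- **Exit lemma**, recursive form: inner wall `b`, outer wall `T` for the coordinate `0`. -/
theorem exit_aux {c : ℝ} (hc : 0 < c) (K : ℕ) : ∀ (ρ : ℕ → ℝ) (b T : ℝ) (f a : ℕ → Z → ℝ)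
    (n : ℕ → Fin 3 → Z → ℝ), (∀ l, 0 < ρ l) → (∀ l, ρ (l + 1) ≤ ρ l / 8) → ρ 0 ≤ 1 / 32 →
    b ≤ -(4 * ρ 0) → -1 / 8 ≤ b → 1 / 8 ≤ T → (∀ j, Continuous (f j)) →
    (∀ k, Continuous (a k)) → (∀ k j, Continuous (n k j)) → (∀ k z, 0 ≤ a k z) →
    (∀ k z, n k 0 z ^ 2 + n k 1 z ^ 2 + n k 2 z ^ 2 = 1) →
    (∀ k < K, ∀ z, 0 < a k z → ρ k / 2 ≤ rR f ρ k z → nR f ρ k z = rR f ρ k z * n k 0 z ∧
      f (2 * k + 1) z = rR f ρ k z * n k 1 z ∧ f (2 * k + 2) z = rR f ρ k z * n k 2 z) →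
    ∃ g : ℕ → Z → ℝ, (∀ j, Continuous (g j)) ∧
      (∀ j, 1 ≤ j → j ≤ 2 * K → ∀ z, 1 / 8 ≤ f j z → 1 / 8 ≤ g j z) ∧
      (∀ j, 1 ≤ j → j ≤ 2 * K → ∀ z, f j z ≤ -1 / 8 → g j z ≤ -1 / 8) ∧
      (∀ z, f 0 z ≤ b → g 0 z = f 0 z) ∧ (∀ z, b ≤ f 0 z → b ≤ g 0 z) ∧
      (∀ z, 4 * ρ 0 ≤ f 0 z → f 0 z ≤ g 0 z) ∧
      ∀ z, (∃ k < K, c ≤ a k z) → T ≤ g 0 z ∨ g 0 z ≤ b ∨
        ∃ j, 1 ≤ j ∧ j ≤ 2 * K ∧ 1 / 8 ≤ |g j z| := by
  induction K with
  | zero =>
    intro ρ b T f a n hρ hρ8 hρ0 hb hb' hT hf ha hn ha0 hn1 hrel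
    exact ⟨f, hf, fun j _ _ z h => h, fun j _ _ z h => h, fun z _ => rfl, fun z h => h,
      fun z _ => le_refl _, fun z ⟨k, hk, _⟩ => absurd hk (Nat.not_lt_zero k)⟩
  | succ K ih =>
    intro ρ b T f a n hρ hρ8 hρ0 hb hb' hT hf ha hn ha0 hn1 hrel
    have hr := hρ 0
    have hρ1 := hρ8 0
    have hρ1' := hρ 1
    obtain ⟨g', hg'c, hg'1, hg'2, hg'3, hg'4, hg'5, hg'6⟩ := ih (fun i => ρ (i + 1))
      (-ρ 0 / 2) (T + 1 / 4) (shF f ρ) (fun k => a (k + 1)) (fun k => n (k + 1))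
      (fun l => hρ _) (fun l => hρ8 _) (by simp only [zero_add] at *; linarith)
      (by simp only [zero_add] at *; linarith) (by linarith) (by linarith)
      (fun j => match j with
        | 0 => nR_continuous hf 1
        | j + 1 => hf (j + 3))
      (fun k => ha _) (fun k => hn _) (fun k => ha0 _) (fun k => hn1 _)
      (fun k hk z h1 h2 => by
        rw [rR_shF] at h2 ⊢
        rw [nR_shF]
        exact hrel (k + 1) (by omega) z h1 h2)
    set R : Z → ℝ := rR f ρ 0 with hRdef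
    have hRz : ∀ z, R z = Real.sqrt (f 0 z ^ 2 + f 1 z ^ 2 + f 2 z ^ 2) := fun z => rfl
    have hR0 : ∀ z, 0 ≤ R z := fun z => Real.sqrt_nonneg _
    have hRsq : ∀ z, R z ^ 2 = f 0 z ^ 2 + f 1 z ^ 2 + f 2 z ^ 2 := fun z => by
      rw [hRz, Real.sq_sqrt (by positivity)]
    have hsh0 : ∀ z, shF f ρ 0 z = R z - ρ 0 := fun z => rfl
    have hRc : Continuous R := by
      have : R = fun z => nR f ρ 1 z + ρ 0 := by
        funext z
        rw [show nR f ρ 1 z = R z - ρ 0 from rfl]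
        ring
      rw [this]
      exact (nR_continuous hf 1).add continuous_const
    -- facts on `t`
    have t1 : ∀ z, R z ≤ ρ 0 / 2 → g' 0 z = R z - ρ 0 := fun z h =>
      (hg'3 z (by rw [hsh0]; linarith)).trans (hsh0 z)
    have t2 : ∀ z, ρ 0 / 2 ≤ R z → -ρ 0 / 2 ≤ g' 0 z := fun z h =>
      hg'4 z (by rw [hsh0]; linarith)
    have t3 : ∀ z, 4 * ρ 0 ≤ R z → R z - ρ 0 ≤ g' 0 z := fun z h => by
      have := hg'5 z (by rw [hsh0]; simp only [zero_add]; linarith)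
      rwa [hsh0] at this
    have hrel0 : ∀ z, ρ 0 / 2 ≤ R z → 0 < a 0 z → f 0 z = R z * n 0 0 z ∧
        f 1 z = R z * n 0 1 z ∧ f 2 z = R z * n 0 2 z := fun z h1 h2 =>
      hrel 0 (by omega) z h2 h1
    set y : Fin 3 → Z → ℝ := fun i z =>
      psh (ρ 0) T c (g' 0 z) (R z) (a 0 z) (f i z) (n 0 i z) with hy
    have hyc : ∀ i, Continuous (y i) := by
      intro i
      have h4 : ∀ z, max (R z) (ρ 0 / 4) ≠ 0 := fun z =>
        (lt_of_lt_of_le (by linarith : 0 < ρ 0 / 4) (le_max_right _ _)).ne'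
      have h5 : Continuous fun z => cut (ρ 0) (g' 0 z) := by
        unfold cut
        exact continuous_const.max (continuous_const.min
          ((((continuous_const.mul (hg'c 0)).div_const _).neg).sub continuous_const))
      have h6 : Continuous fun z => max ((g' 0 z) + ρ 0) (ρ 0 / 4) / max (R z) (ρ 0 / 4) :=
        (((hg'c 0).add continuous_const).max continuous_const).div
          (hRc.max continuous_const) h4
      have h7 : Continuous fun z => max (min 1 (a 0 z / c)) (cut (ρ 0) (g' 0 z)) :=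
        (continuous_const.min ((ha 0).div_const c)).max h5
      exact (h6.mul (hf i)).add ((h7.mul continuous_const).mul (hn 0 i))
    -- radial regime
    have hrad : ∀ z, ρ 0 / 2 ≤ R z → -ρ 0 / 4 ≤ g' 0 z → ∃ M, (g' 0 z + ρ 0) / R z ≤ M ∧
        y 0 z = M * f 0 z ∧ y 1 z = M * f 1 z ∧ y 2 z = M * f 2 z := fun z h1 h2 =>
      psh_radial hr (by linarith) hc (ha0 0 z) h1 h2 (hrel0 z h1)
    have hrad4 : ∀ z, 4 * ρ 0 ≤ R z → ∃ M, 1 ≤ M ∧ y 0 z = M * f 0 z ∧ y 1 z = M * f 1 z ∧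
        y 2 z = M * f 2 z := by
      intro z hz
      have h3 := t3 z hz
      obtain ⟨M, hM, h4, h5, h6⟩ := hrad z (by linarith) (by linarith)
      refine ⟨M, le_trans ?_ hM, h4, h5, h6⟩
      rw [le_div_iff₀ (by linarith)]
      linarith
    have habs : ∀ z (i : Fin 3), |f i z| ≤ R z := by
      intro z i
      apply Real.abs_le_sqrt
      fin_cases i
      · change f 0 z ^ 2 ≤ f 0 z ^ 2 + f 1 z ^ 2 + f 2 z ^ 2
        nlinarith [sq_nonneg (f 1 z), sq_nonneg (f 2 z)]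
      · change f 1 z ^ 2 ≤ f 0 z ^ 2 + f 1 z ^ 2 + f 2 z ^ 2
        nlinarith [sq_nonneg (f 0 z), sq_nonneg (f 2 z)]
      · change f 2 z ^ 2 ≤ f 0 z ^ 2 + f 1 z ^ 2 + f 2 z ^ 2
        nlinarith [sq_nonneg (f 1 z), sq_nonneg (f 0 z)]
    -- the result
    let g : ℕ → Z → ℝ := fun j => match j with
      | 0 => fun z => max (y 0 z) (min (f 0 z) b)
      | 1 => y 1
      | 2 => y 2
      | j + 3 => g' (j + 1)
    refine ⟨g, ?_, ?_, ?_, ?_, ?_, ?_, ?_⟩
    · intro j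
      match j with
      | 0 => exact (hyc 0).max ((hf 0).min continuous_const)
      | 1 => exact hyc 1
      | 2 => exact hyc 2
      | j + 3 => exact hg'c (j + 1)
    · intro j hj1 hj2 z hz
      match j, hj1, hj2, hz with
      | 1, _, _, hz =>
        obtain ⟨M, hM, h4, h5, h6⟩ := hrad4 z (by
          have := (le_abs_self _).trans (habs z 1)
          have h7 : f 1 z ≤ R z := this
          linarith)
        change 1 / 8 ≤ y 1 z
        rw [h5]
        nlinarith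
      | 2, _, _, hz =>
        obtain ⟨M, hM, h4, h5, h6⟩ := hrad4 z (by
          have := (le_abs_self _).trans (habs z 2)
          have h7 : f 2 z ≤ R z := this
          linarith)
        change 1 / 8 ≤ y 2 z
        rw [h6]
        nlinarith
      | j + 3, _, hj2, hz => exact hg'1 (j + 1) (by omega) (by omega) z hz
    · intro j hj1 hj2 z hz
      match j, hj1, hj2, hz with
      | 1, _, _, hz =>
        obtain ⟨M, hM, h4, h5, h6⟩ := hrad4 z (by
          have := (neg_le_abs _).trans (habs z 1)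
          have h7 : -f 1 z ≤ R z := this
          linarith)
        change y 1 z ≤ -1 / 8
        rw [h5]
        nlinarith
      | 2, _, _, hz =>
        obtain ⟨M, hM, h4, h5, h6⟩ := hrad4 z (by
          have := (neg_le_abs _).trans (habs z 2)
          have h7 : -f 2 z ≤ R z := this
          linarith)
        change y 2 z ≤ -1 / 8
        rw [h6]
        nlinarith
      | j + 3, _, hj2, hz => exact hg'2 (j + 1) (by omega) (by omega) z hz
    · intro z hz
      obtain ⟨M, hM, h4, h5, h6⟩ := hrad4 z (by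
        have := (neg_le_abs _).trans (habs z 0)
        have h7 : -f 0 z ≤ R z := this
        linarith)
      change max (y 0 z) (min (f 0 z) b) = f 0 z
      rw [min_eq_left hz, h4]
      apply max_eq_right
      nlinarith
    · intro z hz
      change b ≤ max (y 0 z) (min (f 0 z) b)
      rw [min_eq_right hz]
      exact le_max_right _ _
    · intro z hz
      obtain ⟨M, hM, h4, h5, h6⟩ := hrad4 z (by
        have := (le_abs_self _).trans (habs z 0)
        have h7 : f 0 z ≤ R z := this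
        linarith)
      change f 0 z ≤ max (y 0 z) (min (f 0 z) b)
      refine le_trans ?_ (le_max_left _ _)
      rw [h4]
      nlinarith
    · intro z hz
      -- it is enough that `y` is far
      have key : (T + 1 / 4) ^ 2 ≤ y 0 z ^ 2 + y 1 z ^ 2 + y 2 z ^ 2 →
          T ≤ g 0 z ∨ g 0 z ≤ b ∨ ∃ j, 1 ≤ j ∧ j ≤ 2 * (K + 1) ∧ 1 / 8 ≤ |g j z| := by
        intro h
        by_contra hcon
        push Not at hcon
        obtain ⟨c1, c2, c3⟩ := hcon
        have c4 : |y 1 z| < 1 / 8 := c3 1 le_rfl (by omega)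
        have c5 : |y 2 z| < 1 / 8 := c3 2 (by omega) (by omega)
        have c6 : y 0 z < T := lt_of_le_of_lt (le_max_left _ _) c1
        have c7 : -T < y 0 z := by
          by_contra h8
          push Not at h8
          apply absurd c2
          push Not
          change max (y 0 z) (min (f 0 z) b) ≤ b
          exact max_le (by linarith) (min_le_right _ _)
        have c8 : y 0 z ^ 2 < T ^ 2 := by
          apply sq_lt_sq'
          · exact c7
          · exact c6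
        have c9 : y 1 z ^ 2 < (1 / 8) ^ 2 := by
          rw [← sq_abs]
          exact pow_lt_pow_left₀ c4 (abs_nonneg _) (by norm_num)
        have c10 : y 2 z ^ 2 < (1 / 8) ^ 2 := by
          rw [← sq_abs]
          exact pow_lt_pow_left₀ c5 (abs_nonneg _) (by norm_num)
        nlinarith
      have hfar : max (min 1 (a 0 z / c)) (cut (ρ 0) (g' 0 z)) = 1 → g' 0 z + ρ 0 ≤ ρ 0 / 2 →
          (T + 1 / 4) ^ 2 ≤ y 0 z ^ 2 + y 1 z ^ 2 + y 2 z ^ 2 := fun h1 h2 =>
        psh_far hr hρ0 (by linarith) (hRz z) (hn1 0 z) h1 h2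
      by_cases hac : c ≤ a 0 z
      · have hs : max (min 1 (a 0 z / c)) (cut (ρ 0) (g' 0 z)) = 1 := by
          rw [min_eq_left ((one_le_div hc).2 hac)]
          exact max_eq_left (cut_le_one _ _)
        apply key
        rcases le_total (R z) (ρ 0 / 2) with h | h
        · exact hfar hs (by rw [t1 z h]; linarith)
        · obtain ⟨e0, e1, e2⟩ := hrel0 z h (lt_of_lt_of_le hc hac)
          have ht := t2 z h
          have m1 : max (g' 0 z + ρ 0) (ρ 0 / 4) = g' 0 z + ρ 0 := max_eq_left (by linarith)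
          have m2 : max (R z) (ρ 0 / 4) = R z := max_eq_left (by linarith)
          have hRne : R z ≠ 0 := by
            have : 0 < R z := by linarith
            exact this.ne'
          have m3 : ∀ i : Fin 3, f i z = R z * n 0 i z → y i z = (g' 0 z + ρ 0 + (T + 1)) *
              n 0 i z := by
            intro i hi
            change psh (ρ 0) T c (g' 0 z) (R z) (a 0 z) (f i z) (n 0 i z) = _
            unfold psh
            rw [hs, m1, m2, hi]
            field_simp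
          rw [m3 0 e0, m3 1 e1, m3 2 e2]
          have m4 : ((g' 0 z + ρ 0 + (T + 1)) * n 0 0 z) ^ 2 +
              ((g' 0 z + ρ 0 + (T + 1)) * n 0 1 z) ^ 2 +
              ((g' 0 z + ρ 0 + (T + 1)) * n 0 2 z) ^ 2 = (g' 0 z + ρ 0 + (T + 1)) ^ 2 := by
            linear_combination (g' 0 z + ρ 0 + (T + 1)) ^ 2 * hn1 0 z
          rw [m4]
          exact pow_le_pow_left₀ (by linarith) (by linarith) 2
      · obtain ⟨k, hk, hck⟩ := hz
        have hk0 : k ≠ 0 := by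
          rintro rfl
          exact hac hck
        obtain ⟨k, rfl⟩ := Nat.exists_eq_succ_of_ne_zero hk0
        rcases hg'6 z ⟨k, by omega, hck⟩ with h | h | ⟨j, hj1, hj2, h⟩
        · apply key
          have hRh : ρ 0 / 2 ≤ R z := by
            by_contra hh
            push Not at hh
            have := t1 z hh.le
            linarith
          obtain ⟨M, hM, h4, h5, h6⟩ := hrad z hRh (by linarith)
          have hRpos : 0 < R z := by linarith
          rw [div_le_iff₀ hRpos] at hM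
          rw [h4, h5, h6]
          have m5 : (M * f 0 z) ^ 2 + (M * f 1 z) ^ 2 + (M * f 2 z) ^ 2 = (M * R z) ^ 2 := by
            rw [mul_pow M (R z), hRsq]
            ring
          rw [m5]
          exact pow_le_pow_left₀ (by linarith) (by linarith) 2
        · apply key
          apply hfar
          · rw [cut_one hr h]
            exact max_eq_right (min_le_left _ _)
          · linarith
        · right
          right
          exact ⟨j + 2, by omega, by omega, by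
            obtain ⟨j, rfl⟩ := Nat.exists_eq_succ_of_ne_zero (by omega : j ≠ 0)
            exact h⟩

/-- **Exit lemma.** -/
theorem exit {c : ℝ} (hc : 0 < c) (K : ℕ) (ρ : ℕ → ℝ) (f a : ℕ → Z → ℝ)
    (n : ℕ → Fin 3 → Z → ℝ) (hρ : ∀ l, 0 < ρ l) (hρ8 : ∀ l, ρ (l + 1) ≤ ρ l / 8)
    (hρ0 : ρ 0 ≤ 1 / 32) (hf : ∀ j, Continuous (f j)) (ha : ∀ k, Continuous (a k))
    (hn : ∀ k j, Continuous (n k j)) (ha0 : ∀ k z, 0 ≤ a k z)
    (hn1 : ∀ k z, n k 0 z ^ 2 + n k 1 z ^ 2 + n k 2 z ^ 2 = 1)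
    (hrel : ∀ k < K, ∀ z, 0 < a k z → ρ k / 2 ≤ rR f ρ k z → nR f ρ k z = rR f ρ k z * n k 0 z ∧
      f (2 * k + 1) z = rR f ρ k z * n k 1 z ∧ f (2 * k + 2) z = rR f ρ k z * n k 2 z) :
    ∃ g : ℕ → Z → ℝ, (∀ j, Continuous (g j)) ∧
      (∀ j ≤ 2 * K, ∀ z, 1 / 8 ≤ f j z → 1 / 8 ≤ g j z) ∧
      (∀ j ≤ 2 * K, ∀ z, f j z ≤ -1 / 8 → g j z ≤ -1 / 8) ∧
      ∀ z, (∃ k < K, c ≤ a k z) → ∃ j ≤ 2 * K, 1 / 8 ≤ |g j z| := by
  obtain ⟨g, h1, h2, h3, h4, h5, h6, h7⟩ := exit_aux hc K ρ (-1 / 8) (1 / 8) f a n hρ hρ8 hρ0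
    (by linarith) le_rfl le_rfl hf ha hn ha0 hn1 hrel
  refine ⟨g, h1, ?_, ?_, ?_⟩
  · intro j hj z hz
    rcases Nat.eq_zero_or_pos j with rfl | hj0
    · exact hz.trans (h6 z (by linarith))
    · exact h2 j hj0 hj z hz
  · intro j hj z hz
    rcases Nat.eq_zero_or_pos j with rfl | hj0
    · rw [h4 z hz]
      exact hz
    · exact h3 j hj0 hj z hz
  · intro z hz
    rcases h7 z hz with h | h | ⟨j, hj1, hj2, h⟩
    · exact ⟨0, Nat.zero_le _, h.trans (le_abs_self _)⟩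
    · exact ⟨0, Nat.zero_le _, by
        have := neg_le_abs (g 0 z)
        linarith⟩
    · exact ⟨j, hj2, h⟩

end Vale.Agent.P093.A.Exit
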