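import Vale.Agent.P093.A.HopfDir
import Vale.Agent.P093.HB.H2

/-!
# P093, part A: the exit for a family with the Hopf relations

`v k e b` : finitely many vectors `(v k 0 b, v k 1 b)` of `ℂ²` for each level `k` (for instance the
columns of `F_k P₀`); `P k` a rank one projection of `ℂ²` which contains all of them.
-/

open Matrix

namespace Vale.Agent.P093.A.Exit

open Vale.Agent.P093.Hom (nF rad rho HopfRel gh_rho_pos gh_rho_succ)

theorem nF_eq_nR {Z : Type*} (f : ℕ → Z → ℝ) (ρ : ℕ → ℝ) (l : ℕ) (z : Z) :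
    nF f ρ l z = nR f ρ l z := by
  induction l with
  | zero => rfl
  | succ l ih =>
    change rad (nF f ρ l) (f (2 * l + 1)) (f (2 * l + 2)) z - ρ l = _
    unfold rad
    rw [ih]
    rfl

theorem rad_eq_rR {Z : Type*} (f : ℕ → Z → ℝ) (ρ : ℕ → ℝ) (l : ℕ) (z : Z) :
    rad (nF f ρ l) (f (2 * l + 1)) (f (2 * l + 2)) z = rR f ρ l z := by
  unfold rad rR
  rw [nF_eq_nR]

variable {Z : Type*} [TopologicalSpace Z]

theorem exit_hopf {κ : ℕ} {B : Type*} [Fintype B] {c : ℝ} (hc : 0 < c) (f : ℕ → Z → ℝ)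
    (hf : ∀ j, Continuous (f j)) (v : Fin κ → Fin 2 → B → Z → ℂ)
    (hv : ∀ k e b, Continuous (v k e b)) (P : Fin κ → Z → Matrix (Fin 2) (Fin 2) ℂ)
    (hPc : ∀ k, Continuous (P k)) (hP : ∀ k z, IsLine (P k z))
    (hPv : ∀ k b z, P k z *ᵥ (fun e => v k e b z) = fun e => v k e b z)
    (hopf : ∀ (k : Fin κ) b z,
      rho k / 2 ≤ rad (nF f rho k) (f (2 * k + 1)) (f (2 * k + 2)) z →
      HopfRel (nF f rho k z) (f (2 * k + 1) z) (f (2 * k + 2) z) (v k 0 b z) (v k 1 b z)) :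
    ∃ g : ℕ → Z → ℝ, (∀ j, Continuous (g j)) ∧
      (∀ j ≤ 2 * κ, ∀ z, 1 / 8 ≤ f j z → 1 / 8 ≤ g j z) ∧
      (∀ j ≤ 2 * κ, ∀ z, f j z ≤ -1 / 8 → g j z ≤ -1 / 8) ∧
      ∀ z, (∃ k e b, c ≤ ‖v k e b z‖) → ∃ j ≤ 2 * κ, 1 / 8 ≤ |g j z| := by
  let a : ℕ → Z → ℝ := fun k z => if h : k < κ then ∑ e, ∑ b, ‖v ⟨k, h⟩ e b z‖ else 0
  let n : ℕ → Fin 3 → Z → ℝ := fun k j z =>
    if h : k < κ then hopfN (P ⟨k, h⟩ z) j else (if j = 0 then 1 else 0)
  have ha : ∀ k (h : k < κ) z, a k z = ∑ e, ∑ b, ‖v ⟨k, h⟩ e b z‖ := fun k h z => dif_pos h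
  have hn : ∀ k (h : k < κ) j z, n k j z = hopfN (P ⟨k, h⟩ z) j := fun k h j z => dif_pos h
  have hac : ∀ k, Continuous (a k) := by
    intro k
    by_cases h : k < κ
    · have : a k = fun z => ∑ e, ∑ b, ‖v ⟨k, h⟩ e b z‖ := funext fun z => ha k h z
      rw [this]
      exact continuous_finsetSum _ fun e _ => continuous_finsetSum _ fun b _ => (hv _ _ _).norm
    · have : a k = fun z => 0 := funext fun z => dif_neg h
      rw [this]
      exact continuous_const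
  have hnc : ∀ k j, Continuous (n k j) := by
    intro k j
    by_cases h : k < κ
    · have : n k j = fun z => hopfN (P ⟨k, h⟩ z) j := funext fun z => hn k h j z
      rw [this]
      exact (continuous_hopfN j).comp (hPc _)
    · have : n k j = fun z => (if j = 0 then 1 else 0) := funext fun z => dif_neg h
      rw [this]
      exact continuous_const
  have ha0 : ∀ k z, 0 ≤ a k z := by
    intro k z
    by_cases h : k < κ
    · rw [ha k h]
      exact Finset.sum_nonneg fun _ _ => Finset.sum_nonneg fun _ _ => norm_nonneg _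
    · exact (dif_neg h : a k z = 0).symm.le
  have hn1 : ∀ k z, n k 0 z ^ 2 + n k 1 z ^ 2 + n k 2 z ^ 2 = 1 := by
    intro k z
    by_cases h : k < κ
    · rw [hn k h, hn k h, hn k h]
      exact (hP _ _).norm_hopfN
    · have e1 : ∀ j, n k j z = (if j = 0 then 1 else 0) := fun j => dif_neg h
      rw [e1, e1, e1, if_pos rfl, if_neg (by decide), if_neg (by decide)]
      norm_num
  have hrel : ∀ k < κ, ∀ z, 0 < a k z → rho k / 2 ≤ rR f rho k z →
      nR f rho k z = rR f rho k z * n k 0 z ∧ f (2 * k + 1) z = rR f rho k z * n k 1 z ∧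
        f (2 * k + 2) z = rR f rho k z * n k 2 z := by
    intro k hk z h5 h6
    rw [hn k hk, hn k hk, hn k hk]
    have h7 : ∃ b, v ⟨k, hk⟩ 0 b z ≠ 0 ∨ v ⟨k, hk⟩ 1 b z ≠ 0 := by
      by_contra hcon
      push Not at hcon
      rw [ha k hk, Fin.sum_univ_two] at h5
      have e0 : ∑ b, ‖v ⟨k, hk⟩ 0 b z‖ = 0 := Finset.sum_eq_zero fun b _ => by
        rw [(hcon b).1, norm_zero]
      have e1 : ∑ b, ‖v ⟨k, hk⟩ 1 b z‖ = 0 := Finset.sum_eq_zero fun b _ => by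
        rw [(hcon b).2, norm_zero]
      rw [e0, e1] at h5
      norm_num at h5
    obtain ⟨b, hb⟩ := h7
    have h8 := hopf ⟨k, hk⟩ b z (by rw [rad_eq_rR]; exact h6)
    have h9 : P ⟨k, hk⟩ z *ᵥ ![v ⟨k, hk⟩ 0 b z, v ⟨k, hk⟩ 1 b z] =
        ![v ⟨k, hk⟩ 0 b z, v ⟨k, hk⟩ 1 b z] := by
      have e2 : ![v ⟨k, hk⟩ 0 b z, v ⟨k, hk⟩ 1 b z] = fun e => v ⟨k, hk⟩ e b z := by
        funext e
        fin_cases e <;> rfl
      rw [e2]
      exact hPv _ _ _
    obtain ⟨r1, r2, r3⟩ := hopf_dir h8.1 h8.2 hb (hP _ _) h9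
    have e3 : Real.sqrt (nF f rho k z ^ 2 + f (2 * k + 1) z ^ 2 + f (2 * k + 2) z ^ 2) =
        rR f rho k z := by
      unfold rR
      rw [nF_eq_nR]
    simp only at r1 r2 r3
    rw [e3] at r1 r2 r3
    rw [nF_eq_nR] at r1
    exact ⟨r1, r2, r3⟩
  obtain ⟨g, h1, h2, h3, h4⟩ := exit hc κ rho f a n gh_rho_pos gh_rho_succ
    (by unfold Vale.Agent.P093.Hom.rho; norm_num) hf hac hnc ha0 hn1 hrel
  refine ⟨g, h1, h2, h3, fun z hz => h4 z ?_⟩
  obtain ⟨k, e, b, hk⟩ := hz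
  refine ⟨k, k.2, ?_⟩
  rw [ha k k.2]
  refine hk.trans ?_
  have s1 : ‖v k e b z‖ ≤ ∑ b, ‖v k e b z‖ :=
    Finset.single_le_sum (f := fun b => ‖v k e b z‖) (fun _ _ => norm_nonneg _)
      (Finset.mem_univ b)
  refine s1.trans ?_
  exact Finset.single_le_sum (f := fun e => ∑ b, ‖v k e b z‖)
    (fun _ _ => Finset.sum_nonneg fun _ _ => norm_nonneg _) (Finset.mem_univ e)

end Vale.Agent.P093.A.Exit
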