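import Mathlib.LinearAlgebra.Matrix.ConjTranspose
import Mathlib.Analysis.Complex.Basic
import Mathlib.LinearAlgebra.Matrix.Trace
import Mathlib.Topology.Instances.Matrix
import Vale.Agent.P093.A.Exit

/-!
# P093, part A: the Hopf direction of a rank one projection of `ℂ²`

If the vector `v ≠ 0` satisfies the Hopf relations over `(A, B, C)` and lies in the image of the
rank one hermitian projection `P`, then `(A, B, C)` is `|(A, B, C)|` times the Hopf image of `P`.
-/

open Matrix

namespace Vale.Agent.P093.A.Exit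

/-- the Hopf image of a `2 × 2` matrix -/
noncomputable def hopfN (P : Matrix (Fin 2) (Fin 2) ℂ) : Fin 3 → ℝ
  | 0 => 2 * (P 1 0).re
  | 1 => 2 * (P 1 0).im
  | 2 => 2 * (P 0 0).re - 1

theorem continuous_hopfN (j : Fin 3) : Continuous fun P => hopfN P j := by
  fin_cases j
  · exact continuous_const.mul (Complex.continuous_re.comp (continuous_id.matrix_elem 1 0))
  · exact continuous_const.mul (Complex.continuous_im.comp (continuous_id.matrix_elem 1 0))
  · exact (continuous_const.mul (Complex.continuous_re.comp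
      (continuous_id.matrix_elem 0 0))).sub continuous_const

/-- conditions on a rank one hermitian projection of `ℂ²` -/
structure IsLine (P : Matrix (Fin 2) (Fin 2) ℂ) : Prop where
  idem : P * P = P
  herm : Pᴴ = P
  trace : P.trace = 1

theorem IsLine.h00 {P : Matrix (Fin 2) (Fin 2) ℂ} (h : IsLine P) :
    (starRingEnd ℂ) (P 0 0) = P 0 0 := by
  have := congrFun (congrFun h.herm 0) 0
  rwa [conjTranspose_apply] at this

theorem IsLine.h01 {P : Matrix (Fin 2) (Fin 2) ℂ} (h : IsLine P) :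
    P 0 1 = (starRingEnd ℂ) (P 1 0) := by
  have := congrFun (congrFun h.herm 0) 1
  rw [conjTranspose_apply] at this
  exact this.symm

theorem IsLine.h11 {P : Matrix (Fin 2) (Fin 2) ℂ} (h : IsLine P) : P 1 1 = 1 - P 0 0 := by
  have := h.trace
  rw [Matrix.trace_fin_two] at this
  linear_combination this

theorem IsLine.norm_hopfN {P : Matrix (Fin 2) (Fin 2) ℂ} (h : IsLine P) :
    hopfN P 0 ^ 2 + hopfN P 1 ^ 2 + hopfN P 2 ^ 2 = 1 := by
  have h1 : (P * P) 0 0 = P 0 0 := by rw [h.idem]
  rw [Matrix.mul_apply, Fin.sum_univ_two, h.h01] at h1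
  have h2 : (P 0 0).im = 0 := Complex.conj_eq_iff_im.1 h.h00
  have h3 := congrArg Complex.re h1
  simp only [Complex.add_re, Complex.mul_re, Complex.conj_re, Complex.conj_im, h2] at h3
  change (2 * (P 1 0).re) ^ 2 + (2 * (P 1 0).im) ^ 2 + (2 * (P 0 0).re - 1) ^ 2 = 1
  linear_combination 4 * h3

theorem hopf_dir {A B C : ℝ} {v0 v1 : ℂ}
    (h1 : ((Real.sqrt (A ^ 2 + B ^ 2 + C ^ 2) + C : ℝ) : ℂ) * v1 = ⟨A, B⟩ * v0)
    (h2 : ((Real.sqrt (A ^ 2 + B ^ 2 + C ^ 2) - C : ℝ) : ℂ) * v0 = ⟨A, -B⟩ * v1)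
    (hv : v0 ≠ 0 ∨ v1 ≠ 0) {P : Matrix (Fin 2) (Fin 2) ℂ} (hP : IsLine P)
    (hPv : P *ᵥ ![v0, v1] = ![v0, v1]) :
    A = Real.sqrt (A ^ 2 + B ^ 2 + C ^ 2) * hopfN P 0 ∧
      B = Real.sqrt (A ^ 2 + B ^ 2 + C ^ 2) * hopfN P 1 ∧
      C = Real.sqrt (A ^ 2 + B ^ 2 + C ^ 2) * hopfN P 2 := by
  set R := Real.sqrt (A ^ 2 + B ^ 2 + C ^ 2) with hR
  set w : ℂ := ⟨A, B⟩ with hw
  set a0 := (starRingEnd ℂ) v0 with ha0
  set a1 := (starRingEnd ℂ) v1 with ha1
  set α := P 0 0 with hα
  set β := P 1 0 with hβ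
  have hw' : (starRingEnd ℂ) (⟨A, -B⟩ : ℂ) = w := by
    apply Complex.ext <;> simp [hw]
  have h2c : ((R - C : ℝ) : ℂ) * a0 = w * a1 := by
    have := congrArg (starRingEnd ℂ) h2
    rwa [map_mul, map_mul, Complex.conj_ofReal, hw'] at this
  have e0 := congrFun hPv 0
  have e1 := congrFun hPv 1
  simp only [Matrix.mulVec, dotProduct, Fin.sum_univ_two, Matrix.cons_val_zero,
    Matrix.cons_val_one] at e0 e1
  rw [hP.h01] at e0
  rw [hP.h11] at e1
  have k1 : β * v0 = α * v1 := by linear_combination e1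
  have k2 : (starRingEnd ℂ) β * v1 = (1 - α) * v0 := by linear_combination e0
  have k2c : β * a1 = (1 - α) * a0 := by
    have := congrArg (starRingEnd ℂ) k2
    rw [map_mul, map_mul, Complex.conj_conj, map_sub, map_one, hP.h00] at this
    exact this
  push_cast at h1 h2c
  set N : ℂ := v0 * a0 + v1 * a1 with hN
  have hN0 : N ≠ 0 := by
    have e : N = ((Complex.normSq v0 + Complex.normSq v1 : ℝ) : ℂ) := by
      rw [hN, ha0, ha1, Complex.mul_conj, Complex.mul_conj]
      push_cast
      rfl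
    rw [e]
    have : 0 < Complex.normSq v0 + Complex.normSq v1 := by
      rcases hv with h | h
      · exact add_pos_of_pos_of_nonneg (Complex.normSq_pos.2 h) (Complex.normSq_nonneg _)
      · exact add_pos_of_nonneg_of_pos (Complex.normSq_nonneg _) (Complex.normSq_pos.2 h)
    exact_mod_cast this.ne'
  have g1 : w = 2 * (R : ℂ) * β := by
    apply mul_right_cancel₀ hN0
    rw [hN]
    linear_combination -(2 * (R : ℂ) * a0) * k1 - (2 * (R : ℂ) * v1) * k2c - a0 * h1 - v1 * h2c
  have g2 : (C : ℂ) = (R : ℂ) * (2 * α - 1) := by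
    apply mul_right_cancel₀ hN0
    rw [hN]
    linear_combination a1 * h1 - v0 * h2c + 2 * (R : ℂ) * (a1 * k1 - v0 * k2c)
  have hαim : α.im = 0 := Complex.conj_eq_iff_im.1 hP.h00
  refine ⟨?_, ?_, ?_⟩
  · have := congrArg Complex.re g1
    simp only [hw, Complex.mul_re, Complex.mul_im, Complex.re_ofNat, Complex.im_ofNat,
      Complex.ofReal_re, Complex.ofReal_im] at this
    change A = R * (2 * β.re)
    linear_combination this
  · have := congrArg Complex.im g1
    simp only [hw, Complex.mul_re, Complex.mul_im, Complex.re_ofNat, Complex.im_ofNat,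
      Complex.ofReal_re, Complex.ofReal_im] at this
    change B = R * (2 * β.im)
    linear_combination this
  · have := congrArg Complex.re g2
    simp only [Complex.mul_re, Complex.mul_im, Complex.sub_re, Complex.sub_im, Complex.one_re,
      Complex.one_im, Complex.re_ofNat, Complex.im_ofNat,
      Complex.ofReal_re, Complex.ofReal_im] at this
    change C = R * (2 * α.re - 1)
    linear_combination this

end Vale.Agent.P093.A.Exit
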