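import Mathlib

/-!
# The counting lemma (MDS matrix) and the compactness margin

`exists_mds`: for finite types `ι` (groups), `σ` (coordinates of one group) and `p` there is a linear map
`L : (ι → σ → ℂ) → (Fin p → ℂ)` which is injective on the vectors supported in a set `S` of groups with
`S.card * card σ ≤ p`.

`exists_margin`: `X` compact, `F x : V → (ι → σ → ℂ)` linear, injective and continuous in `x`: there is
`c > 0` such that `‖L (F x q)‖ ≤ c ‖q‖`, `q ≠ 0` implies that more than `a` groups have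
`c ‖q‖ ≤ ‖F x q i‖`, where `a * card σ ≤ p`.
-/

open Set Topology

namespace Vale.Agent.P093.A

section MDS

variable (ι σ : Type*) [Fintype ι] [Fintype σ]

/-- the nodes of the Vandermonde matrix -/
noncomputable def mdsNode (a : ι × σ) : ℂ := ((Fintype.equivFin (ι × σ) a : ℕ) : ℂ)

theorem mdsNode_injective : Function.Injective (mdsNode ι σ) := by
  intro a b h
  have h1 : ((Fintype.equivFin (ι × σ) a : ℕ)) = (Fintype.equivFin (ι × σ) b : ℕ) := by
    unfold mdsNode at h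
    exact_mod_cast h
  exact (Fintype.equivFin (ι × σ)).injective (Fin.ext h1)

/-- the Vandermonde map `y ↦ (∑ node ^ j * y)_j`, `j < p` -/
noncomputable def mds (p : ℕ) : (ι → σ → ℂ) →ₗ[ℂ] (Fin p → ℂ) :=
  LinearMap.pi fun j : Fin p => ∑ i : ι, ∑ k : σ,
    (mdsNode ι σ (i, k) ^ (j : ℕ)) • ((LinearMap.proj k : (σ → ℂ) →ₗ[ℂ] ℂ) ∘ₗ
      (LinearMap.proj i : (ι → σ → ℂ) →ₗ[ℂ] (σ → ℂ)))

theorem mds_apply (p : ℕ) (y : ι → σ → ℂ) (j : Fin p) :
    mds ι σ p y j = ∑ i : ι, ∑ k : σ, mdsNode ι σ (i, k) ^ (j : ℕ) * y i k := by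
  simp [mds, LinearMap.sum_apply]

theorem mds_inj (p : ℕ) (S : Finset ι) (hS : S.card * Fintype.card σ ≤ p) (y : ι → σ → ℂ)
    (hy : ∀ i, i ∉ S → y i = 0) (h0 : mds ι σ p y = 0) : y = 0 := by
  classical
  -- the support
  let T : Finset (ι × σ) := S ×ˢ Finset.univ
  have hT : T.card ≤ p := by
    rw [Finset.card_product, Finset.card_univ]; exact hS
  let e : Fin T.card ≃ T := T.equivFin.symm
  let v : Fin T.card → ℂ := fun a => mdsNode ι σ (e a).1
  have hv : Function.Injective v := by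
    intro a b hab
    exact e.injective (Subtype.ext (mdsNode_injective ι σ hab))
  have hdet : (Matrix.vandermonde v).transpose.det ≠ 0 := by
    rw [Matrix.det_transpose]; exact Matrix.det_vandermonde_ne_zero_iff.2 hv
  have h3 : (Matrix.vandermonde v).transpose.mulVec (fun a => y (e a).1.1 (e a).1.2) = 0 := by
    funext j
    have h4 := congrFun h0 ⟨j, j.2.trans_le hT⟩
    rw [mds_apply] at h4
    rw [← Fintype.sum_prod_type' (f := fun i k => mdsNode ι σ (i, k) ^ (j : ℕ) * y i k)] at h4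
    have h5 : ∑ x : ι × σ, mdsNode ι σ (x.1, x.2) ^ (j : ℕ) * y x.1 x.2 =
        ∑ x ∈ T, mdsNode ι σ (x.1, x.2) ^ (j : ℕ) * y x.1 x.2 := by
      refine (Finset.sum_subset (Finset.subset_univ T) fun x _ hx => ?_).symm
      have hx' : x.1 ∉ S := by
        intro h; exact hx (Finset.mem_product.2 ⟨h, Finset.mem_univ _⟩)
      rw [hy _ hx']; simp
    rw [h5, ← Finset.sum_coe_sort T, ← Equiv.sum_comp e] at h4
    simpa [Matrix.mulVec, dotProduct, Matrix.vandermonde_apply, v] using h4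
  have h4 := Matrix.eq_zero_of_mulVec_eq_zero hdet h3
  funext i k
  by_cases hi : i ∈ S
  · have hx : (i, k) ∈ T := Finset.mem_product.2 ⟨hi, Finset.mem_univ _⟩
    have h5 := congrFun h4 (e.symm ⟨(i, k), hx⟩)
    simpa using h5
  · rw [hy i hi]; rfl

/-- counting: if `L y = 0` and `y ≠ 0` then more than `a` groups are non-zero -/
theorem lt_card_of_mds_eq_zero [DecidableEq ι] {p a : ℕ} (hp : a * Fintype.card σ ≤ p)
    {y : ι → σ → ℂ} (h0 : mds ι σ p y = 0) (hy : y ≠ 0)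
    [DecidablePred fun i => y i ≠ 0] :
    a < (Finset.univ.filter fun i => y i ≠ 0).card := by
  by_contra hcon
  push Not at hcon
  apply hy
  refine mds_inj ι σ p (Finset.univ.filter fun i => y i ≠ 0)
    (le_trans (Nat.mul_le_mul_right _ hcon) hp) y ?_ h0
  intro i hi
  by_contra h
  exact hi (Finset.mem_filter.2 ⟨Finset.mem_univ _, h⟩)

end MDS

section Margin

variable {ι σ : Type*} [Fintype ι] [Fintype σ] {X V : Type*} [TopologicalSpace X] [CompactSpace X]
  [NormedAddCommGroup V] [NormedSpace ℂ V] [FiniteDimensional ℂ V]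

/-- positive lower bound on `X × sphere`, homogeneous form -/
theorem exists_pos_bound {g : X → V → ℝ} (hg : Continuous fun z : X × V => g z.1 z.2)
    (hh : ∀ x (c : ℂ) q, g x (c • q) = ‖c‖ * g x q) (hpos : ∀ x q, q ≠ 0 → 0 < g x q) :
    ∃ c : ℝ, 0 < c ∧ ∀ x q, c * ‖q‖ ≤ g x q := by
  have : ProperSpace V := FiniteDimensional.proper ℂ V
  have hK : IsCompact ((univ : Set X) ×ˢ Metric.sphere (0 : V) 1) :=
    isCompact_univ.prod (isCompact_sphere 0 1)
  rcases ((univ : Set X) ×ˢ Metric.sphere (0 : V) 1).eq_empty_or_nonempty with hE | hE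
  · refine ⟨1, one_pos, fun x q => ?_⟩
    by_cases hq : q = 0
    · subst hq
      have h1 := hh x 0 0
      rw [zero_smul, norm_zero, zero_mul] at h1
      rw [h1]; simp
    · exfalso
      have : (x, ((‖q‖⁻¹ : ℝ) : ℂ) • q) ∈ ((univ : Set X) ×ˢ Metric.sphere (0 : V) 1) := by
        refine ⟨mem_univ _, ?_⟩
        rw [mem_sphere_zero_iff_norm, norm_smul]
        simp [norm_ne_zero_iff.2 hq]
      rw [hE] at this
      exact this
  · obtain ⟨z₀, hz₀, hmin⟩ := hK.exists_isMinOn hE hg.continuousOn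
    have hz₀' : z₀.2 ≠ 0 := by
      intro h
      have h1 := hz₀.2
      rw [mem_sphere_zero_iff_norm, h, norm_zero] at h1
      exact zero_ne_one h1
    refine ⟨g z₀.1 z₀.2, hpos _ _ hz₀', fun x q => ?_⟩
    by_cases hq : q = 0
    · subst hq
      have h1 := hh x 0 0
      rw [zero_smul, norm_zero, zero_mul] at h1
      rw [h1]; simp
    · have hn : 0 < ‖q‖ := norm_pos_iff.2 hq
      have h1 : (x, ((‖q‖⁻¹ : ℝ) : ℂ) • q) ∈ ((univ : Set X) ×ˢ Metric.sphere (0 : V) 1) := by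
        refine ⟨mem_univ _, ?_⟩
        rw [mem_sphere_zero_iff_norm, norm_smul]
        simp [norm_ne_zero_iff.2 hq]
      have h2 : g z₀.1 z₀.2 ≤ g x (((‖q‖⁻¹ : ℝ) : ℂ) • q) := hmin h1
      rw [hh] at h2
      have h3 : ‖((‖q‖⁻¹ : ℝ) : ℂ)‖ = ‖q‖⁻¹ := by simp
      rw [h3] at h2
      calc g z₀.1 z₀.2 * ‖q‖ ≤ (‖q‖⁻¹ * g x q) * ‖q‖ := mul_le_mul_of_nonneg_right h2 hn.le
        _ = g x q := by field_simp

/-- The compactness margin. -/
theorem exists_margin {p a : ℕ} (hp : a * Fintype.card σ ≤ p)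
    (F : X → V →ₗ[ℂ] (ι → σ → ℂ)) (hF : Continuous fun z : X × V => F z.1 z.2)
    (hinj : ∀ x q, q ≠ 0 → F x q ≠ 0) :
    ∃ c : ℝ, 0 < c ∧ ∀ x q, q ≠ 0 → ‖mds ι σ p (F x q)‖ ≤ c * ‖q‖ →
      ∃ S : Finset ι, a < S.card ∧ ∀ i ∈ S, c * ‖q‖ ≤ ‖F x q i‖ := by
  classical
  -- the function attached to a small set of groups
  let g : Finset ι → X → V → ℝ := fun T x q =>
    ‖mds ι σ p (F x q)‖ + ∑ i ∈ Tᶜ, ‖F x q i‖
  have hL : Continuous (mds ι σ p) := LinearMap.continuous_of_finiteDimensional _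
  have hgc : ∀ T, Continuous fun z : X × V => g T z.1 z.2 := by
    intro T
    refine ((hL.comp hF).norm).add (continuous_finsetSum _ fun i _ => ?_)
    exact ((continuous_apply i).comp hF).norm
  have hgh : ∀ T x (c : ℂ) q, g T x (c • q) = ‖c‖ * g T x q := by
    intro T x c q
    simp only [g, map_smul, Pi.smul_apply, norm_smul, mul_add, Finset.mul_sum]
  have hgp : ∀ T : Finset ι, T.card ≤ a → ∀ x q, q ≠ 0 → 0 < g T x q := by
    intro T hT x q hq
    have h0 : 0 ≤ g T x q := by positivity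
    refine lt_of_le_of_ne h0 fun heq => ?_
    have h1 : ‖mds ι σ p (F x q)‖ = 0 ∧ ∑ i ∈ Tᶜ, ‖F x q i‖ = 0 := by
      have hs : 0 ≤ ∑ i ∈ Tᶜ, ‖F x q i‖ := Finset.sum_nonneg fun i _ => norm_nonneg _
      have hn : 0 ≤ ‖mds ι σ p (F x q)‖ := norm_nonneg _
      constructor <;> simp only [g] at heq <;> linarith
    apply hinj x q hq
    refine mds_inj ι σ p T (le_trans (Nat.mul_le_mul_right _ hT) hp) _ ?_ (norm_eq_zero.1 h1.1)
    intro i hi
    have h2 := (Finset.sum_eq_zero_iff_of_nonneg fun i _ => norm_nonneg (F x q i)).1 h1.2 i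
      (Finset.mem_compl.2 hi)
    exact norm_eq_zero.1 h2
  have hb : ∀ T : Finset ι, ∃ c : ℝ, 0 < c ∧ (T.card ≤ a → ∀ x q, c * ‖q‖ ≤ g T x q) := by
    intro T
    by_cases hT : T.card ≤ a
    · obtain ⟨c, hc, h⟩ := exists_pos_bound (hgc T) (hgh T) (hgp T hT)
      exact ⟨c, hc, fun _ => h⟩
    · exact ⟨1, one_pos, fun h => absurd h hT⟩
  choose c hc hcb using hb
  -- the minimum
  obtain ⟨c₀, hc₀, hc₀le⟩ : ∃ c₀ : ℝ, 0 < c₀ ∧ ∀ T, c₀ ≤ c T := by
    obtain ⟨T₀, -, hT₀⟩ := Finset.exists_min_image (Finset.univ : Finset (Finset ι)) c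
      Finset.univ_nonempty
    exact ⟨c T₀, hc T₀, fun T => hT₀ T (Finset.mem_univ _)⟩
  refine ⟨c₀ / (Fintype.card ι + 2), by positivity, fun x q hq hle => ?_⟩
  obtain ⟨d, hd⟩ : ∃ d : ℝ, d = c₀ / (Fintype.card ι + 2) := ⟨_, rfl⟩
  rw [← hd] at hle ⊢
  have hd0 : 0 < d := by rw [hd]; positivity
  have hdc : d * (Fintype.card ι + 2) = c₀ := by rw [hd]; field_simp
  refine ⟨Finset.univ.filter fun i => d * ‖q‖ ≤ ‖F x q i‖, ?_, fun i hi =>
    (Finset.mem_filter.1 hi).2⟩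
  by_contra hcon
  push Not at hcon
  have hn : 0 < ‖q‖ := norm_pos_iff.2 hq
  have h1 := hcb _ hcon x q
  have h2 : g (Finset.univ.filter fun i => d * ‖q‖ ≤ ‖F x q i‖) x q ≤
      d * ‖q‖ + Fintype.card ι * (d * ‖q‖) := by
    refine add_le_add hle ?_
    calc ∑ i ∈ (Finset.univ.filter fun i => d * ‖q‖ ≤ ‖F x q i‖)ᶜ, ‖F x q i‖
        ≤ ∑ i ∈ (Finset.univ.filter fun i => d * ‖q‖ ≤ ‖F x q i‖)ᶜ, d * ‖q‖ := by
          refine Finset.sum_le_sum fun i hi => ?_
          rw [Finset.mem_compl, Finset.mem_filter] at hi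
          by_contra h
          push Not at h
          exact hi ⟨Finset.mem_univ _, h.le⟩
      _ = ((Finset.univ.filter fun i => d * ‖q‖ ≤ ‖F x q i‖)ᶜ.card : ℝ) * (d * ‖q‖) := by
          rw [Finset.sum_const, nsmul_eq_mul]
      _ ≤ Fintype.card ι * (d * ‖q‖) := by
          refine mul_le_mul_of_nonneg_right ?_ (by positivity)
          exact_mod_cast Finset.card_le_univ _
  have h3 : c₀ * ‖q‖ ≤ c (Finset.univ.filter fun i => d * ‖q‖ ≤ ‖F x q i‖) * ‖q‖ :=
    mul_le_mul_of_nonneg_right (hc₀le _) hn.le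
  have h4 : c₀ * ‖q‖ = Fintype.card ι * (d * ‖q‖) + 2 * (d * ‖q‖) := by
    rw [← hdc]; ring
  have h5 : 0 < d * ‖q‖ := by positivity
  linarith

omit [CompactSpace X] in
/-- continuity of the matrix of a family of linear maps -/
theorem continuous_clm {W : Type*} [NormedAddCommGroup W] [NormedSpace ℂ W]
    (M : X → V →ₗ[ℂ] W) (hM : ∀ q, Continuous fun x => M x q) :
    Continuous fun x => (LinearMap.toContinuousLinearMap (M x) : V →L[ℂ] W) := by
  rw [continuous_clm_apply]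
  exact hM

end Margin

end Vale.Agent.P093.A
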