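import Mathlib.Analysis.Calculus.FDeriv.Add
import Mathlib.Analysis.Calculus.FDeriv.Mul
import Mathlib.Analysis.Calculus.FDeriv.Pi
import Mathlib.Analysis.Normed.Module.FiniteDimension
import Mathlib.Analysis.Asymptotics.Lemmas
import Mathlib.Analysis.Complex.Basic
import Mathlib.Data.Matrix.Mul

/-!
# P093, block A-ZERO: entrywise derivatives of matrix valued functions

`HD f f' v₀` : every entry of the matrix valued function `f` (on a real normed space) is
differentiable at `v₀`, with derivative the entry of `f'`. Rules for sums, products and constants.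
-/

open Matrix Filter Topology

noncomputable section

namespace Vale.Agent.P093.A.Zero

variable {V : Type*} [NormedAddCommGroup V] [NormedSpace ℝ V]
variable {I J K : Type*}

/-- `f : V → Matrix I J ℂ` is entrywise differentiable at `v₀` with derivative `f'`. -/
def HD (f f' : V → Matrix I J ℂ) (v₀ : V) : Prop :=
  ∀ i j, ∃ L : V →L[ℝ] ℂ, (∀ h, L h = f' h i j) ∧ HasFDerivAt (fun v => f v i j) L v₀

theorem HD.const (M : Matrix I J ℂ) (v₀ : V) : HD (fun _ => M) (fun _ => 0) v₀ := fun _ _ =>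
  ⟨0, fun _ => rfl, hasFDerivAt_const _ _⟩

theorem HD.add {f f' g g' : V → Matrix I J ℂ} {v₀ : V} (hf : HD f f' v₀) (hg : HD g g' v₀) :
    HD (fun v => f v + g v) (fun h => f' h + g' h) v₀ := by
  intro i j
  obtain ⟨L, h1, h2⟩ := hf i j
  obtain ⟨L', h1', h2'⟩ := hg i j
  exact ⟨L + L', fun h => by simp [h1, h1'], h2.add h2'⟩

theorem HD.sub {f f' g g' : V → Matrix I J ℂ} {v₀ : V} (hf : HD f f' v₀) (hg : HD g g' v₀) :
    HD (fun v => f v - g v) (fun h => f' h - g' h) v₀ := by
  intro i j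
  obtain ⟨L, h1, h2⟩ := hf i j
  obtain ⟨L', h1', h2'⟩ := hg i j
  exact ⟨L - L', fun h => by simp [h1, h1'], h2.sub h2'⟩

theorem HD.smul {f f' : V → Matrix I J ℂ} {v₀ : V} (c : ℂ) (hf : HD f f' v₀) :
    HD (fun v => c • f v) (fun h => c • f' h) v₀ := by
  intro i j
  obtain ⟨L, h1, h2⟩ := hf i j
  exact ⟨c • L, fun h => by simp [h1], h2.const_smul c⟩

theorem HD.mul [Fintype J] {f f' : V → Matrix I J ℂ} {g g' : V → Matrix J K ℂ} {v₀ : V}
    (hf : HD f f' v₀) (hg : HD g g' v₀) :
    HD (fun v => f v * g v) (fun h => f v₀ * g' h + f' h * g v₀) v₀ := by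
  intro i k
  choose L h1 h2 using hf i
  choose L' h1' h2' using fun j => hg j k
  refine ⟨∑ j, (f v₀ i j • L' j + g v₀ j k • L j), fun h => ?_, ?_⟩
  · simp only [_root_.sum_apply, _root_.add_apply,
      _root_.smul_apply, h1, h1', smul_eq_mul, Matrix.add_apply, Matrix.mul_apply,
      Finset.sum_add_distrib]
    congr 1
    exact Finset.sum_congr rfl fun j _ => mul_comm _ _
  · have : (fun v => (f v * g v) i k) = fun v => ∑ j, f v i j * g v j k := by
      funext v; rw [Matrix.mul_apply]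
    rw [this]
    exact HasFDerivAt.fun_sum fun j _ => (h2 j).mul (h2' j)

theorem HD.congr {f f' f'' : V → Matrix I J ℂ} {v₀ : V} (hf : HD f f' v₀)
    (h : ∀ x, f' x = f'' x) : HD f f'' v₀ := by
  have : f' = f'' := funext h
  exact this ▸ hf

/-- an additive and real homogeneous matrix valued function on a finite dimensional space -/
theorem HD.linear [FiniteDimensional ℝ V] (f : V →ₗ[ℝ] Matrix I J ℂ) (v₀ : V) :
    HD (fun v => f v) (fun h => f h) v₀ := by
  intro i j
  let L : V →ₗ[ℝ] ℂ :=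
    { toFun := fun v => f v i j
      map_add' := fun x y => by simp
      map_smul' := fun c x => by simp }
  exact ⟨LinearMap.toContinuousLinearMap L, fun h => rfl,
    (LinearMap.toContinuousLinearMap L).hasFDerivAt⟩

/-- a vector valued function whose coordinates are differentiable -/
theorem hasFDerivAt_of_coords {J : Type*} [Fintype J] {ξ : V → J → ℂ} {ξ' : V → J → ℂ} {v₀ : V}
    (h : ∀ j, ∃ L : V →L[ℝ] ℂ, (∀ h, L h = ξ' h j) ∧ HasFDerivAt (fun v => ξ v j) L v₀) :
    ∃ D : V →L[ℝ] (J → ℂ), (∀ h, D h = ξ' h) ∧ HasFDerivAt ξ D v₀ := by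
  choose L h1 h2 using h
  refine ⟨ContinuousLinearMap.pi L, fun h => ?_, ?_⟩
  · funext j
    exact h1 j h
  · exact hasFDerivAt_pi.2 h2

/-- chain rule with a derivative in the `Matrix` space given by estimates -/
theorem HD.of_bound [Fintype I] [Fintype J] {f f' : V → Matrix I J ℂ} {v₀ : V}
    (hlin : ∃ F : V →ₗ[ℝ] Matrix I J ℂ, ∀ h, F h = f' h) [FiniteDimensional ℝ V] {C r : ℝ}
    (hr : 0 < r)
    (h : ∀ x, ‖x‖ < r → ∀ i j, ‖f (v₀ + x) i j - f v₀ i j - f' x i j‖ ≤ C * ‖x‖ ^ 2) :
    HD f f' v₀ := by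
  obtain ⟨F, hF⟩ := hlin
  intro i j
  let L : V →ₗ[ℝ] ℂ :=
    { toFun := fun v => F v i j
      map_add' := fun x y => by simp
      map_smul' := fun c x => by simp }
  refine ⟨LinearMap.toContinuousLinearMap L, fun x => by
    change F x i j = _
    rw [hF], ?_⟩
  rw [hasFDerivAt_iff_isLittleO_nhds_zero]
  refine Asymptotics.IsBigO.trans_isLittleO (g := fun x : V => ‖x‖ ^ 2) ?_ ?_
  · refine Asymptotics.IsBigO.of_bound C ?_
    filter_upwards [Metric.ball_mem_nhds (0 : V) hr] with x hx
    rw [mem_ball_zero_iff] at hx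
    have h1 := h x hx i j
    have h2 : (LinearMap.toContinuousLinearMap L) x = f' x i j := by
      change F x i j = _
      rw [hF]
    rw [h2]
    simpa using h1
  · have : (fun x : V => ‖x‖ ^ 2) =o[𝓝 0] fun x : V => ‖x‖ := by
      have h3 := (Asymptotics.isLittleO_pow_id (𝕜 := ℝ) (one_lt_two)).comp_tendsto
        (tendsto_norm_zero (E := V))
      exact h3
    exact Asymptotics.isLittleO_norm_right.mp this

end Vale.Agent.P093.A.Zero
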